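import Vale.Agent.P207.N3.H310.Head
import Vale.Agent.P207.N3.H969.Line
import Vale.Agent.P207.N3.H147.Fwd
import Vale.Agent.P207.N3.Top.Ret

/-!
# P207, line N3, head of Part A: the derivatives `G` of the forward charts and the matrices `B_κ`

Over the structure `Fwd` of helper147: `G` is continuous and invertible on the stable leaf of `β⁺`
(`G_cont`, `G_det`), `B_k ∘ D(x ∘ e (k • y))(0) = G y` (`Bm_eq`), and the composition law
`B_{k₁ β^m k₂} = (B_{k₂} + o(1)) N^m (B_{k₁} + o(1))` (`Bm_comp`).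
-/

open Set Filter Topology Metric MeasureTheory
open scoped ContDiff

set_option linter.unusedSectionVars false

noncomputable section

namespace Vale.Agent.P207.N3.H310

open Vale.Agent.P207.N3.H147

variable {Γ X B : Type} [Group Γ] [MetricSpace X] [ProperSpace X] [MulAction Γ X]
  [IsIsometricSMul Γ X] [TopologicalSpace B] [CompactSpace B] [T2Space B] [MulAction Γ B]
  [ContinuousConstSMul Γ B] {L : Leaf Γ X B}

/-! ### Linear algebra -/

theorem det_comp (S T : E2 →L[ℝ] E2) : (S ∘L T).det = S.det * T.det := by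
  rw [det_eq, det_eq, det_eq, mx_comp, Matrix.det_mul]

theorem det_id : (ContinuousLinearMap.id ℝ E2).det = 1 := by
  simp [ContinuousLinearMap.det]

theorem det_ne_of_comp {S T : E2 →L[ℝ] E2} (h : S ∘L T = ContinuousLinearMap.id ℝ E2) :
    S.det ≠ 0 ∧ T.det ≠ 0 := by
  have h1 : S.det * T.det = 1 := by rw [← det_comp, h, det_id]
  exact ⟨left_ne_zero_of_mul_eq_one h1, right_ne_zero_of_mul_eq_one h1⟩

theorem mx_id : mx (ContinuousLinearMap.id ℝ E2) = 1 := by
  ext i j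
  rw [mx_apply]
  fin_cases i <;> fin_cases j <;> simp

/-- `mx` as a continuous linear map -/
def mxL : (E2 →L[ℝ] E2) →ₗ[ℝ] Matrix (Fin 2) (Fin 2) ℝ where
  toFun := mx
  map_add' S T := by
    ext i j
    rw [Matrix.add_apply, mx_apply, mx_apply, mx_apply]
    simp
  map_smul' c T := by
    ext i j
    rw [Matrix.smul_apply, mx_apply, mx_apply]
    simp

theorem mx_add (S T : E2 →L[ℝ] E2) : mx (S + T) = mx S + mx T := mxL.map_add S T

theorem mx_sub (S T : E2 →L[ℝ] E2) : mx (S - T) = mx S - mx T := mxL.map_sub S T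

theorem mx_cont : Continuous (mx : (E2 →L[ℝ] E2) → Matrix (Fin 2) (Fin 2) ℝ) := by
  refine continuous_matrix fun i j => ?_
  have h : (fun M : E2 →L[ℝ] E2 => mx M i j)
      = fun M : E2 →L[ℝ] E2 => (M (EuclideanSpace.single j 1)) i := by
    funext M
    exact mx_apply M i j
  rw [h]
  fun_prop

theorem mx_pow (N : E2 →L[ℝ] E2) (m : ℕ) : mx (N ^ m) = mx N ^ m := by
  induction m with
  | zero => rw [pow_zero, pow_zero]; exact mx_id
  | succ m ih =>
    rw [pow_succ, pow_succ, ← ih]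
    exact mx_comp (N ^ m) N

theorem mx_inj {S T : E2 →L[ℝ] E2} (h : mx S = mx T) : S = T := by
  refine ContinuousLinearMap.coe_injective ?_
  exact (LinearMap.toMatrix (EuclideanSpace.basisFun (Fin 2) ℝ).toBasis
    (EuclideanSpace.basisFun (Fin 2) ℝ).toBasis).injective h

theorem mx_tendsto {ι : Type*} {l : Filter ι} {a : ι → E2 →L[ℝ] E2} {b : E2 →L[ℝ] E2}
    (h : Tendsto a l (𝓝 b)) : Tendsto (fun i => mx (a i)) l (𝓝 (mx b)) :=
  (mx_cont.tendsto b).comp h

theorem inv_tendsto' {ι : Type*} {l : Filter ι} {a : ι → Matrix (Fin 2) (Fin 2) ℝ}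
    {b : Matrix (Fin 2) (Fin 2) ℝ} (h : Tendsto a l (𝓝 b)) (hb : b.det ≠ 0) :
    Tendsto (fun i => (a i)⁻¹) l (𝓝 b⁻¹) := by
  have h1 : Continuous fun a : Matrix (Fin 2) (Fin 2) ℝ => a.det :=
    Continuous.matrix_det continuous_id
  have h2 : Continuous fun a : Matrix (Fin 2) (Fin 2) ℝ => a.adjugate :=
    Continuous.matrix_adjugate continuous_id
  have h3 := (((h1.tendsto b).comp h).inv₀ hb).smul ((h2.tendsto b).comp h)
  rw [Matrix.inv_def, Ring.inverse_eq_inv']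
  refine h3.congr fun i => ?_
  rw [Matrix.inv_def, Ring.inverse_eq_inv']
  rfl

theorem fderiv_eq_curry {V : Type} [NormedAddCommGroup V] [NormedSpace ℝ V] (f : E2 → V)
    (u : E2) : fderiv ℝ f u =
      (continuousMultilinearCurryFin1 ℝ E2 V) (iteratedFDeriv ℝ 1 f u) := by
  ext v
  simp

theorem norm_fderiv_sub {V : Type} [NormedAddCommGroup V] [NormedSpace ℝ V] (f g : E2 → V)
    (u : E2) : ‖fderiv ℝ f u - fderiv ℝ g u‖
      = ‖iteratedFDeriv ℝ 1 f u - iteratedFDeriv ℝ 1 g u‖ := by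
  rw [fderiv_eq_curry f, fderiv_eq_curry g, ← map_sub, LinearIsometryEquiv.norm_map]

/-! ### Charts -/

/-- the chain rule for the transition maps -/
theorem fderiv_chart {V : Type} [NormedAddCommGroup V] [NormedSpace ℝ V] (f : B → V) {y y' : X}
    (he : L.em y = L.em y') {u : E2} (hu : u ∈ L.dm y y')
    (hf : DifferentiableAt ℝ (fun v => f (L.e y' v)) (L.τ y y' u)) :
    fderiv ℝ (fun v => f (L.e y v)) u
      = (fderiv ℝ (fun v => f (L.e y' v)) (L.τ y y' u)) ∘L (fderiv ℝ (L.τ y y') u) := by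
  have h1 : (fun v => f (L.e y v)) =ᶠ[𝓝 u] (fun v => f (L.e y' v)) ∘ L.τ y y' := by
    filter_upwards [(L.isOpen_dm y y').mem_nhds hu] with v hv
    simp only [Function.comp_apply]
    rw [L.e_tau hv]
  rw [h1.fderiv_eq]
  exact fderiv_comp u hf (L.tau_diff he hu)

theorem diff_chart {V : Type} [NormedAddCommGroup V] [NormedSpace ℝ V] (f : B → V) {y y' : X}
    (he : L.em y = L.em y') {u : E2} (hu : u ∈ L.dm y y')
    (hf : DifferentiableAt ℝ (fun v => f (L.e y' v)) (L.τ y y' u)) :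
    DifferentiableAt ℝ (fun v => f (L.e y v)) u := by
  have h1 : (fun v => f (L.e y v)) =ᶠ[𝓝 u] (fun v => f (L.e y' v)) ∘ L.τ y y' := by
    filter_upwards [(L.isOpen_dm y y').mem_nhds hu] with v hv
    simp only [Function.comp_apply]
    rw [L.e_tau hv]
  exact (hf.comp u (L.tau_diff he hu)).congr_of_eventuallyEq h1

theorem zero_dm {y y' : X} (hp : L.ep y = L.ep y') : (0 : E2) ∈ L.dm y y' :=
  ⟨by simp, 0, by simp, by rw [L.e_zero, L.e_zero, hp]⟩

theorem tau_zero {y y' : X} (hp : L.ep y = L.ep y') : L.τ y y' 0 = 0 := by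
  rw [L.tau_eq, L.e_zero, hp, ← L.e_zero, L.inv_e (by simp)]

theorem det_tau {y y' : X} (he : L.em y = L.em y') {u : E2} (hu : u ∈ L.dm y y') :
    (fderiv ℝ (L.τ y y') u).det ≠ 0 :=
  (det_ne_of_comp (L.fderiv_tau_comp he hu)).2

/-! ### The maps `G` -/

variable {o : Orb L} {n : Nor L o} {c : ℝ}

theorem nor_diff (n : Nor L o) {y : X} (hy : L.em y = o.neg) {u : E2}
    (hu : u ∈ ball (0 : E2) 3) : DifferentiableAt ℝ (fun v => n.x (L.e y v)) u :=
  ((n.smooth y hy).differentiableOn (by simp)).differentiableAt (isOpen_ball.mem_nhds hu)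

section Gs

variable {x : B → E2} {N : E2 → E2} (W : Fwd o x N c)

/-- the reference frame at `β⁺` on the leaf of `ζ` -/
theorem hol_em' {ζ : B} (h : ζ ≠ o.pos) : L.em (L.hol ζ o.x) = ζ := L.hol_em ζ o.x h

theorem hol_ep' {ζ : B} (h : ζ ≠ o.pos) : L.ep (L.hol ζ o.x) = o.pos := L.hol_ep ζ o.x h

theorem F_diff {ζ : B} (h : ζ ≠ o.pos) {u : E2} (hu : u ∈ ball (0 : E2) 1) :
    DifferentiableAt ℝ (fun v => W.F ζ (L.e (L.hol ζ o.x) v)) u :=
  ((W.smooth ζ h).differentiableOn (by simp)).differentiableAt (isOpen_ball.mem_nhds hu)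

theorem em_ne {y : X} (hy : L.ep y = o.pos) : L.em y ≠ o.pos := by
  rw [← hy]
  exact L.em_ne_ep y

theorem G_eq {y : X} (hy : L.ep y = o.pos) :
    W.G y = (fderiv ℝ (fun v => W.F (L.em y) (L.e (L.hol (L.em y) o.x) v)) 0)
      ∘L (fderiv ℝ (L.τ y (L.hol (L.em y) o.x)) 0) := by
  have hne := em_ne hy
  have hem : L.em y = L.em (L.hol (L.em y) o.x) := (hol_em' hne).symm
  have hep : L.ep y = L.ep (L.hol (L.em y) o.x) := by rw [hol_ep' hne, hy]
  have h1 := fderiv_chart (fun b => W.F (L.em y) b) hem (zero_dm hep)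
    (by rw [tau_zero hep]; exact F_diff W hne (by simp))
  rw [tau_zero hep] at h1
  exact h1

theorem G_det {y : X} (hy : L.ep y = o.pos) : (W.G y).det ≠ 0 := by
  have hne := em_ne hy
  have hem : L.em y = L.em (L.hol (L.em y) o.x) := (hol_em' hne).symm
  have hep : L.ep y = L.ep (L.hol (L.em y) o.x) := by rw [hol_ep' hne, hy]
  rw [G_eq W hy, det_comp]
  exact mul_ne_zero (W.deriv _ hne) (det_tau hem (zero_dm hep))

theorem hol_tendsto {ι : Type*} {l : Filter ι} {ζ : ι → B} {ζ₀ : B} {y : X}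
    (h : Tendsto ζ l (𝓝 ζ₀)) (hne : ζ₀ ≠ L.ep y) :
    Tendsto (fun i => L.hol (ζ i) y) l (𝓝 (L.hol ζ₀ y)) := by
  refine (L.hol_cont (ζ₀, y) hne).tendsto.comp
    (tendsto_nhdsWithin_iff.mpr ⟨h.prodMk_nhds tendsto_const_nhds, ?_⟩)
  exact (h.eventually_ne hne).mono fun i hi => hi

theorem G_cont : ContinuousOn W.G {y | L.ep y = o.pos} := by
  intro y hy
  have hy' : L.ep y = o.pos := hy
  have hne := em_ne hy'
  have hid : Tendsto (fun i : X => i) (𝓝[{y | L.ep y = o.pos}] y) (𝓝 y) :=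
    tendsto_id.mono_left nhdsWithin_le_nhds
  have hev : ∀ᶠ i in 𝓝[{y | L.ep y = o.pos}] y, L.ep i = o.pos := self_mem_nhdsWithin
  have hem : Tendsto (fun i : X => L.em i) (𝓝[{y | L.ep y = o.pos}] y) (𝓝 (L.em y)) :=
    (L.em_cont.tendsto y).comp hid
  have hh : Tendsto (fun i : X => L.hol (L.em i) o.x) (𝓝[{y | L.ep y = o.pos}] y)
      (𝓝 (L.hol (L.em y) o.x)) := hol_tendsto hem hne
  have ht : Tendsto (fun i : X => fderiv ℝ (L.τ i (L.hol (L.em i) o.x)) 0)
      (𝓝[{y | L.ep y = o.pos}] y) (𝓝 (fderiv ℝ (L.τ y (L.hol (L.em y) o.x)) 0)) := by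
    refine L.fderiv_tau_tendsto hid hh tendsto_const_nhds ?_ ?_ (hol_em' hne).symm
      (zero_dm (by rw [hol_ep' hne, hy']))
    · filter_upwards [hev] with i hi
      exact (hol_em' (em_ne hi)).symm
    · filter_upwards [hev] with i hi
      exact zero_dm (by rw [hol_ep' (em_ne hi), hi])
  have hF : Tendsto (fun i : X => fderiv ℝ (fun v => W.F (L.em i) (L.e (L.hol (L.em i) o.x) v)) 0)
      (𝓝[{y | L.ep y = o.pos}] y)
      (𝓝 (fderiv ℝ (fun v => W.F (L.em y) (L.e (L.hol (L.em y) o.x) v)) 0)) := by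
    have h1 := W.cont 1 (L.em y, 0) ⟨hne, by simp⟩
    have h2 : Tendsto (fun i : X => (L.em i, (0 : E2))) (𝓝[{y | L.ep y = o.pos}] y)
        (𝓝[{o.pos}ᶜ ×ˢ ball 0 1] (L.em y, 0)) := by
      refine tendsto_nhdsWithin_iff.mpr ⟨hem.prodMk_nhds tendsto_const_nhds, ?_⟩
      filter_upwards [hev] with i hi
      exact ⟨em_ne hi, by simp⟩
    have h3 := ((continuousMultilinearCurryFin1 ℝ E2 E2).continuous.tendsto _).comp
      (h1.tendsto.comp h2)
    rw [fderiv_eq_curry]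
    refine h3.congr fun i => ?_
    simp only [Function.comp_apply]
    rw [fderiv_eq_curry]
  have hc : Continuous fun p : (E2 →L[ℝ] E2) × (E2 →L[ℝ] E2) => p.1 ∘L p.2 := by fun_prop
  have h5 := (hc.tendsto _).comp (hF.prodMk_nhds ht)
  unfold ContinuousWithinAt
  rw [G_eq W hy']
  refine h5.congr' ?_
  filter_upwards [hev] with i hi
  simp only [Function.comp_apply]
  rw [G_eq W hi]

end Gs

/-! ### The matrices `B_k` -/

variable {N : E2 → E2} (W : Fwd o n.x N c)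

include n in
theorem inv_ne_pos (k : Γ) (hk : k • o.pos ≠ o.neg) : k⁻¹ • o.neg ≠ o.pos := by
  intro h
  apply hk
  rw [← h, smul_inv_smul]

theorem hom_em (k : Γ) (hk : k • o.pos ≠ o.neg) : L.em (W.hom k) = o.neg := by
  refine L.hol_em _ _ ?_
  rw [L.ep_smul]
  exact hk.symm

theorem hom_ep (k : Γ) (hk : k • o.pos ≠ o.neg) : L.ep (W.hom k) = k • o.pos := by
  unfold Fwd.hom
  rw [L.hol_ep _ _ (by rw [L.ep_smul]; exact hk.symm), L.ep_smul]
  rfl

/-- `k • hol (k⁻¹ β⁻) x₀ = hom k` -/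
theorem smul_hol (k : Γ) (hk : k • o.pos ≠ o.neg) :
    k • L.hol (k⁻¹ • o.neg) o.x = W.hom k := by
  have h := L.hol_smul k (k⁻¹ • o.neg) o.x (inv_ne_pos (n := n) k hk)
  rw [smul_inv_smul] at h
  exact h.symm

theorem Bm_hom (k : Γ) (hk : k • o.pos ≠ o.neg) :
    W.Bm k ∘L (fderiv ℝ (fun u => n.x (L.e (W.hom k) u)) 0)
      = W.G (L.hol (k⁻¹ • o.neg) o.x) := by
  have hd : (fderiv ℝ (fun u => n.x (L.e (W.hom k) u)) 0).det ≠ 0 :=
    n.deriv _ (hom_em W k hk) 0 (by simp)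
  obtain ⟨e, he⟩ : ∃ e : E2 ≃L[ℝ] E2,
      (e : E2 →L[ℝ] E2) = fderiv ℝ (fun u => n.x (L.e (W.hom k) u)) 0 :=
    ⟨ContinuousLinearMap.toContinuousLinearEquivOfDetNeZero _ hd,
      ContinuousLinearMap.coe_toContinuousLinearEquivOfDetNeZero _ hd⟩
  unfold Fwd.Bm
  rw [ContinuousLinearMap.comp_assoc, ← he, ContinuousLinearMap.inverse_equiv]
  rw [ContinuousLinearEquiv.coe_symm_comp_coe, ContinuousLinearMap.comp_id]

theorem Bm_eq (k : Γ) {y : X} (hy : L.ep y = o.pos) (hk : L.em (k • y) = o.neg) :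
    W.Bm k ∘L fderiv ℝ (fun u => n.x (L.e (k • y) u)) 0 = W.G y := by
  have hem : L.em y = k⁻¹ • o.neg := by rw [← hk, L.em_smul, inv_smul_smul]
  have hne := em_ne hy
  have hkp : k • o.pos ≠ o.neg := by
    intro h
    apply hne
    rw [hem, ← h, inv_smul_smul]
  set y0 := L.hol (k⁻¹ • o.neg) o.x with hy0
  have hem0 : L.em y0 = k⁻¹ • o.neg := hol_em' (hem ▸ hne)
  have hep0 : L.ep y0 = o.pos := hol_ep' (hem ▸ hne)
  have e1 : L.em y = L.em y0 := by rw [hem, hem0]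
  have p1 : L.ep y = L.ep y0 := by rw [hy, hep0]
  have hky0 : k • y0 = W.hom k := smul_hol W k hkp
  -- `D(x ∘ e (k • y)) = D(x ∘ e (hom k)) ∘ Dτ`
  have e2 : L.em (k • y) = L.em (k • y0) := by rw [L.em_smul, L.em_smul, e1]
  have p2 : L.ep (k • y) = L.ep (k • y0) := by rw [L.ep_smul, L.ep_smul, p1]
  have h1 := fderiv_chart n.x e2 (zero_dm p2) (by
    rw [tau_zero p2]
    exact nor_diff n (by rw [← e2, hk]) (by simp))
  rw [tau_zero p2] at h1
  have h2 : fderiv ℝ (L.τ (k • y) (k • y0)) 0 = fderiv ℝ (L.τ y y0) 0 := by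
    refine Filter.EventuallyEq.fderiv_eq ?_
    filter_upwards [(L.isOpen_dm y y0).mem_nhds (zero_dm p1)] with u hu
    exact L.tau_smul k hu
  -- `G y = G y0 ∘ Dτ`
  have h3 : W.G y = W.G y0 ∘L fderiv ℝ (L.τ y y0) 0 := by
    have h4 := fderiv_chart (fun b => W.F (k⁻¹ • o.neg) b) e1 (zero_dm p1) (by
      rw [tau_zero p1]
      exact F_diff W (hem ▸ hne) (by simp))
    rw [tau_zero p1] at h4
    unfold Fwd.G
    rw [hem, hem0]
    exact h4
  rw [h1, h2, h3, ← ContinuousLinearMap.comp_assoc, hky0, Bm_hom W k hkp]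

theorem Bm_det (k : Γ) (hk : k • o.pos ≠ o.neg) : (W.Bm k).det ≠ 0 := by
  have h1 := congrArg ContinuousLinearMap.det (Bm_hom W k hk)
  rw [det_comp] at h1
  have h2 := G_det W (y := L.hol (k⁻¹ • o.neg) o.x) (hol_ep' (inv_ne_pos (n := n) k hk))
  rw [← h1] at h2
  exact left_ne_zero_of_mul h2

end Vale.Agent.P207.N3.H310
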