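import Vale.Agent.P207.N3.H310.Germ
import Vale.Agent.P207.N3.H992.Iter

/-!
# P207, line N3 (P4, E2): assembly: forward coordinates of all closed orbits, one exponent
-/

open Set Filter Topology Metric MeasureTheory
open scoped ContDiff

set_option linter.unusedSectionVars false

noncomputable section

namespace Vale.Agent.P207.N3.H310

open Vale.Agent.P207.N3.H147

variable {Γ X B : Type} [Group Γ] [MetricSpace X] [ProperSpace X] [MulAction Γ X]
  [IsIsometricSMul Γ X] [TopologicalSpace B] [CompactSpace B] [T2Space B] [MulAction Γ B]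
  [ContinuousConstSMul Γ B] {L : Leaf Γ X B}

theorem exists_NF {f : E2 → E2} (h : H992.IsNF f) : ∃ N : H790.NF, N.OK ∧ N.fn = f := by
  cases h with
  | tri μ₁ μ₂ a k h2 h1 ha => exact ⟨.tri μ₁ μ₂ a k, ⟨h2, h1, ha⟩, rfl⟩
  | cx c s hs h => exact ⟨.cx c s, ⟨hs, h⟩, rfl⟩

/-- `x (β^{-m} η) = N^m (x η)` -/
theorem nor_iter {o : Orb L} (n : Nor L o) (m : ℕ) {η : B} (h : η ≠ o.neg) :
    n.x ((o.β ^ m)⁻¹ • η) = (n.N.fn)^[m] (n.x η) := by
  induction m with
  | zero => simp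
  | succ m ih =>
    have h1 : (o.β ^ m)⁻¹ • η ≠ o.neg := by
      intro hc
      rw [inv_smul_eq_iff] at hc
      have h2 := Ax.pow_smul_em o.ax m
      exact h (hc.trans h2)
    rw [Function.iterate_succ_apply', ← ih, ← n.equiv _ h1, smul_smul]
    congr 2
    rw [pow_succ, mul_inv_rev]

/-- the normal coordinate of the `j`-fold orbit -/
theorem exists_nor_pow {o : Orb L} (n : Nor L o) {j : ℕ} (hj : 0 < j) :
    ∃ n' : Nor L (o.pow j hj), n'.x = n.x ∧ n'.N.fn = (n.N.fn)^[j] := by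
  obtain ⟨N', hN1, hN2⟩ := exists_NF ((isNF_of_OK n.ok).iter hj)
  exact ⟨{
    N := N'
    ok := hN1
    x := n.x
    base := n.base
    equiv := fun η h => by
      rw [hN2]
      exact nor_iter n j h
    smooth := n.smooth
    inv := n.inv
    inv_cont := n.inv_cont
    inv_ne := n.inv_ne
    inv_right := n.inv_right
    inv_left := n.inv_left
    deriv := n.deriv }, rfl, hN2⟩

/-- assembly: `l₀ ≤ l` first, then powers -/
theorem exists_fwd_of {c : ℝ} {l₀ : ℝ}
    (h1 : ∀ o : Orb L, l₀ ≤ o.l → ∀ n : Nor L o, Nonempty (Fwd o n.x n.N.fn c))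
    (h2 : ∀ (o : Orb L) (n : Nor L o) (j : ℕ) (hj : 0 < j),
      Nonempty (Fwd (o.pow j hj) n.x (n.N.fn)^[j] c) → Nonempty (Fwd o n.x n.N.fn c)) :
    ∀ (o : Orb L) (n : Nor L o), Nonempty (Fwd o n.x n.N.fn c) := by
  intro o n
  obtain ⟨j, hj⟩ := exists_nat_ge (l₀ / o.l)
  have hl := o.ax.pos
  have hj' : l₀ ≤ ((j + 1 : ℕ) : ℝ) * o.l := by
    rw [div_le_iff₀ hl] at hj
    push_cast
    nlinarith
  obtain ⟨n', hx, hN⟩ := exists_nor_pow n (Nat.succ_pos j)
  have h3 := h1 (o.pow (j + 1) (Nat.succ_pos j)) hj' n'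
  rw [hx, hN] at h3
  exact h2 o n (j + 1) (Nat.succ_pos j) h3

end Vale.Agent.P207.N3.H310
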