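import Vale.Agent.P207.N3.H310.Germ
import Vale.Agent.P207.N3.H686.Conv3
import Vale.Agent.P207.N3.H992.Pow

/-!
# P207, line N3 (P4, E2): forward coordinates of all closed orbits, one exponent, from the
convergence `ConvF` of the germs
-/

open Set Filter Topology Metric MeasureTheory
open scoped ContDiff

set_option linter.unusedSectionVars false

noncomputable section

namespace Vale.Agent.P207.N3.H310

open Vale.Agent.P207.N3.H147

variable {Γ X B : Type} [Group Γ] [MetricSpace X] [ProperSpace X] [MulAction Γ X]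
  [IsIsometricSMul Γ X] [TopologicalSpace B] [CompactSpace B] [T2Space B] [MulAction Γ B]
  [ContinuousConstSMul Γ B] {L : Leaf Γ X B}

/-- the field `conv` of `Fwd` -/
def ConvF (o : Orb L) (x : B → E2) (N : E2 → E2) (c : ℝ) (F : B → B → E2) : Prop :=
  ∀ K : Set B, IsCompact K → o.pos ∉ K → ∀ Q : Set X, IsCompact Q →
    (∀ y ∈ Q, L.em y = o.neg) → ∀ k : ℕ, ∃ C, ∀ᶠ m : ℕ in atTop, ∀ ζ ∈ K, ∀ y ∈ Q,
    (o.β ^ m)⁻¹ • ζ ≠ L.ep y ∧
    (∀ u ∈ closedBall (0 : E2) 3, o.β ^ m • L.e (L.hol ((o.β ^ m)⁻¹ • ζ) y) u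
      ∈ L.e (L.hol ζ o.x) '' ball 0 1) ∧
    ContDiffOn ℝ ∞ (fun u => N^[m] (F ζ (o.β ^ m • L.e (L.hol ((o.β ^ m)⁻¹ • ζ) y) u)))
      (ball 0 3) ∧
    ∀ u ∈ closedBall (0 : E2) 1,
      ‖iteratedFDeriv ℝ k
          (fun u => N^[m] (F ζ (o.β ^ m • L.e (L.hol ((o.β ^ m)⁻¹ • ζ) y) u))) u
        - iteratedFDeriv ℝ k (fun u => x (L.e y u)) u‖ ≤ C * Real.exp (-c * o.l * m)

/-- the forward coordinates from the germs and the convergence -/
def fwd_of_germ {o : Orb L} (n : Nor L o) {c c' : ℝ} (hc : 0 < c') (g : Germ o n.x n.N.fn c)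
    (conv : ConvF o n.x n.N.fn c' g.F) : Fwd o n.x n.N.fn c' where
  F := g.F
  base := g.base
  smooth := g.smooth
  cont := g.cont
  deriv := g.deriv
  conv := conv
  conv3 := H686.conv3_of_conv o n.smooth hc conv

/-- assembly of (E2) -/
theorem exists_fwd_of_conv (L : Leaf Γ X B)
    (hconv : ∀ c : ℝ, 0 < c → ∃ c' : ℝ, 0 < c' ∧ ∀ (o : Orb L) (n : Nor L o), L.t1 ≤ o.l →
      ∀ g : Germ o n.x n.N.fn c, ConvF o n.x n.N.fn c' g.F) :
    ∃ c₁ : ℝ, 0 < c₁ ∧ ∀ (o : Orb L) (n : Nor L o), Nonempty (Fwd o n.x n.N.fn c₁) := by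
  obtain ⟨c, hc, l₀, hg⟩ := exists_germ L
  obtain ⟨c', hc', h⟩ := hconv c hc
  refine ⟨c', hc', H992.fwd_of_large (l₀ := l₀) hc'.le fun o hl n => ?_⟩
  obtain ⟨h1, h2⟩ := hg o hl
  obtain ⟨g⟩ := h2 n
  exact ⟨fwd_of_germ n hc' g (h o n h1 g)⟩

end Vale.Agent.P207.N3.H310
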