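import Vale.Agent.P207.N3.H310.Fw

/-!
# P207, line N3, head of Part A: the composition law

`B_{k₁ β^m k₂} = (B_{k₂} + o(1)) N^m (B_{k₁} + o(1))` (`Bm_comp`), from the convergence of the
forward coordinates.
-/

open Set Filter Topology Metric MeasureTheory
open scoped ContDiff

set_option linter.unusedSectionVars false

noncomputable section

namespace Vale.Agent.P207.N3.H310

open Vale.Agent.P207.N3.H147

variable {Γ X B : Type} [Group Γ] [MetricSpace X] [ProperSpace X] [MulAction Γ X]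
  [IsIsometricSMul Γ X] [TopologicalSpace B] [CompactSpace B] [T2Space B] [MulAction Γ B]
  [ContinuousConstSMul Γ B] {L : Leaf Γ X B} {o : Orb L} {n : Nor L o} {c : ℝ}

theorem iter_eq {f : E2 → E2} {N : E2 →L[ℝ] E2} (hN : ∀ v, f v = N v) (m : ℕ) (v : E2) :
    f^[m] v = (N ^ m) v := by
  induction m generalizing v with
  | zero => simp
  | succ m ih =>
    rw [Function.iterate_succ_apply, ih, hN, pow_succ]
    rfl

/-- `β^m η → β⁺` -/
theorem north_tendsto (o : Orb L) {η : B} (h : η ≠ o.neg) :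
    Tendsto (fun m : ℕ => o.β ^ m • η) atTop (𝓝 o.pos) := by
  rw [tendsto_iff_forall_eventually_mem]
  intro V hV
  filter_upwards [Ax.north o.ax (K := {η}) isCompact_singleton
    (fun h1 => h (mem_singleton_iff.1 h1).symm) hV] with m hm
  exact hm η rfl

/-- `β^{-m} η → β⁻` -/
theorem south_tendsto (o : Orb L) {η : B} (h : η ≠ o.pos) :
    Tendsto (fun m : ℕ => (o.β ^ m)⁻¹ • η) atTop (𝓝 o.neg) := by
  rw [tendsto_iff_forall_eventually_mem]
  intro V hV
  filter_upwards [Ax.south o.ax (K := {η}) isCompact_singleton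
    (fun h1 => h (mem_singleton_iff.1 h1).symm) hV] with m hm
  exact hm η rfl

/-- matrix algebra of the composition law -/
theorem comp_alg {b a d g t p f : Matrix (Fin 2) (Fin 2) ℝ} (h1 : b * (a * d) = g)
    (h2 : t = p * (f * d)) (ha : a.det ≠ 0) (ht : t.det ≠ 0) :
    b = g * t⁻¹ * p * (f * a⁻¹) := by
  have hau : IsUnit a.det := isUnit_iff_ne_zero.2 ha
  have htu : IsUnit t.det := isUnit_iff_ne_zero.2 ht
  have h3 : (p * f) * (d * t⁻¹) = 1 := by
    have : (p * f) * (d * t⁻¹) = t * t⁻¹ := by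
      rw [h2]
      simp only [mul_assoc]
    rw [this, Matrix.mul_nonsing_inv _ htu]
  have h4 : (d * t⁻¹) * (p * f) = 1 := mul_eq_one_comm.1 h3
  calc b = b * (a * a⁻¹) := by rw [Matrix.mul_nonsing_inv _ hau, mul_one]
    _ = b * (a * ((d * t⁻¹) * (p * f)) * a⁻¹) := by rw [h4, mul_one]
    _ = (b * (a * d)) * t⁻¹ * p * (f * a⁻¹) := by simp only [mul_assoc]
    _ = g * t⁻¹ * p * (f * a⁻¹) := by rw [h1]

/-- COMPOSITION LAW -/
theorem Bm_comp (W : Fwd o n.x n.N.fn c) {N : E2 →L[ℝ] E2} (hN : ∀ v, n.N.fn v = N v)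
    (hc : 0 < c) (k₁ k₂ : Γ) (h₁ : k₁ • o.pos ≠ o.neg) (h₂ : k₂ • o.pos ≠ o.neg) :
    ∃ E₁ E₂ : ℕ → Matrix (Fin 2) (Fin 2) ℝ, Tendsto E₁ atTop (𝓝 0) ∧ Tendsto E₂ atTop (𝓝 0) ∧
      ∀ᶠ m : ℕ in atTop, (k₁ * o.β ^ m * k₂) • o.pos ≠ o.neg ∧
        mx (W.Bm (k₁ * o.β ^ m * k₂))
          = (mx (W.Bm k₂) + E₂ m) * mx N ^ m * (mx (W.Bm k₁) + E₁ m) := by
  set ζ : B := k₁⁻¹ • o.neg with hζ
  have hζp : ζ ≠ o.pos := inv_ne_pos (n := n) k₁ h₁
  set y1 : X := L.hol ζ o.x with hy1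
  have hy1em : L.em y1 = ζ := hol_em' hζp
  have hy1ep : L.ep y1 = o.pos := hol_ep' hζp
  have hw1 : k₁ • y1 = W.hom k₁ := smul_hol W k₁ h₁
  have hw1em : L.em (k₁ • y1) = o.neg := by rw [hw1, hom_em W k₁ h₁]
  set v : X := W.hom k₂ with hv
  have hvem : L.em v = o.neg := hom_em W k₂ h₂
  have hvep : L.ep v = k₂ • o.pos := hom_ep W k₂ h₂
  have hvne : o.neg ≠ L.ep v := by rw [hvep]; exact h₂.symm
  set ζm : ℕ → B := fun m => (o.β ^ m)⁻¹ • ζ with hζm
  have hζlim : Tendsto ζm atTop (𝓝 o.neg) := south_tendsto o hζp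
  have hζne : ∀ᶠ m in atTop, ζm m ≠ L.ep v := hζlim.eventually_ne hvne
  set vm : ℕ → X := fun m => L.hol (ζm m) v with hvm
  have hvmlim : Tendsto vm atTop (𝓝 v) := by
    have h := hol_tendsto hζlim hvne
    rwa [← hvem, L.hol_self] at h
  -- the points `s m`
  have hnorth : Tendsto (fun m : ℕ => o.β ^ m • L.ep v) atTop (𝓝 (L.e y1 0)) := by
    rw [L.e_zero, hy1ep]
    exact north_tendsto o hvne.symm
  obtain ⟨-, hslim⟩ := L.inv_tendsto (x := fun _ : ℕ => y1) tendsto_const_nhds hnorth (by simp)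
  set s : ℕ → E2 := fun m => L.inv y1 (o.β ^ m • L.ep v) with hs
  obtain ⟨C, hconv⟩ := W.conv {ζ} isCompact_singleton
    (fun h => hζp (mem_singleton_iff.1 h).symm) {v} isCompact_singleton
    (by intro y hy; rw [mem_singleton_iff.1 hy, hvem]) 1
  -- the linear maps
  set Fm : ℕ → E2 →L[ℝ] E2 := fun m => fderiv ℝ (fun u => W.F ζ (L.e y1 u)) (s m) with hFm
  set Am : ℕ → E2 →L[ℝ] E2 := fun m => fderiv ℝ (fun u => n.x (L.e (k₁ • y1) u)) (s m) with hAm
  set Dm : ℕ → E2 →L[ℝ] E2 := fun m => fderiv ℝ (L.τ (o.β ^ m • vm m) y1) 0 with hDm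
  set Gm : ℕ → E2 →L[ℝ] E2 := fun m => W.G (k₂⁻¹ • vm m) with hGm
  set V : E2 →L[ℝ] E2 := fderiv ℝ (fun u => n.x (L.e v u)) 0 with hV
  have hVdet : V.det ≠ 0 := n.deriv v hvem 0 (by simp)
  -- limits
  have hFlim : Tendsto Fm atTop (𝓝 (W.G y1)) := by
    have h1 : ContinuousOn (fderiv ℝ (fun u => W.F ζ (L.e y1 u))) (ball 0 1) :=
      (W.smooth ζ hζp).continuousOn_fderiv_of_isOpen isOpen_ball (by simp)
    have h2 : ContinuousAt (fderiv ℝ (fun u => W.F ζ (L.e y1 u))) 0 :=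
      h1.continuousAt (isOpen_ball.mem_nhds (by simp))
    have h3 : W.G y1 = fderiv ℝ (fun u => W.F ζ (L.e y1 u)) 0 := by
      unfold Fwd.G
      rw [hy1em]
    rw [h3]
    exact h2.tendsto.comp hslim
  have hAlim : Tendsto Am atTop (𝓝 (fderiv ℝ (fun u => n.x (L.e (k₁ • y1) u)) 0)) := by
    have h1 : ContinuousOn (fderiv ℝ (fun u => n.x (L.e (k₁ • y1) u))) (ball 0 3) :=
      (n.smooth _ hw1em).continuousOn_fderiv_of_isOpen isOpen_ball (by simp)
    exact (h1.continuousAt (isOpen_ball.mem_nhds (by simp))).tendsto.comp hslim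
  have hGlim : Tendsto Gm atTop (𝓝 (W.G (k₂⁻¹ • v))) := by
    have hep : L.ep (k₂⁻¹ • v) = o.pos := by rw [L.ep_smul, hvep, inv_smul_smul]
    refine (G_cont W (k₂⁻¹ • v) hep).tendsto.comp (tendsto_nhdsWithin_iff.mpr
      ⟨((continuous_const_smul k₂⁻¹).tendsto _).comp hvmlim, ?_⟩)
    filter_upwards [hζne] with m hm
    show L.ep (k₂⁻¹ • vm m) = o.pos
    rw [L.ep_smul, hvm]
    simp only
    rw [L.hol_ep _ _ hm, hvep, inv_smul_smul]
  -- the main identities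
  have hmain : ∀ᶠ m : ℕ in atTop, ‖(N ^ m) ∘L (Fm m ∘L Dm m) - V‖ ≤ C * Real.exp (-c * o.l * m) ∧
      W.Bm (k₁ * o.β ^ m * k₂) ∘L (Am m ∘L Dm m) = Gm m ∧ s m ∈ ball (0 : E2) 1 := by
    filter_upwards [hconv] with m hm
    obtain ⟨hne, hdom, -, hest⟩ := hm ζ rfl v rfl
    have hne' : ζm m ≠ L.ep v := hne
    have hvmem : L.em (vm m) = ζm m := L.hol_em _ _ hne'
    have hvmep : L.ep (vm m) = L.ep v := L.hol_ep _ _ hne'
    have hbem : L.em (o.β ^ m • vm m) = L.em y1 := by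
      rw [L.em_smul, hvmem, hy1em, hζm]
      simp only
      rw [smul_inv_smul]
    have hd0 : o.β ^ m • L.e (vm m) 0 ∈ L.e y1 '' ball 0 1 := hdom 0 (by simp)
    have he0 : L.e (o.β ^ m • vm m) 0 = o.β ^ m • L.e (vm m) 0 := L.e_smul _ _ _ (by simp)
    have hdm : (0 : E2) ∈ L.dm (o.β ^ m • vm m) y1 := by
      refine ⟨by simp, ?_⟩
      show L.e (o.β ^ m • vm m) 0 ∈ L.e y1 '' ball 0 3
      rw [he0]
      exact image_mono (ball_subset_ball (by norm_num)) hd0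
    have hτ0 : L.τ (o.β ^ m • vm m) y1 0 = s m := by
      rw [L.tau_eq, L.e_zero, L.ep_smul, hvmep]
    have hs1 : s m ∈ ball (0 : E2) 1 := by
      refine L.inv_mem_ball (by norm_num) ?_
      rw [L.e_zero, hvmep] at hd0
      exact hd0
    refine ⟨?_, ?_, hs1⟩
    · -- the derivative of `N^m ∘ F ζ ∘ β^m ∘ e (vm m)`
      have h1 : fderiv ℝ (fun u => W.F ζ (L.e (o.β ^ m • vm m) u)) 0 = Fm m ∘L Dm m := by
        have h2 := fderiv_chart (fun b => W.F ζ b) hbem hdm (by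
          rw [hτ0]
          exact F_diff W hζp hs1)
        rw [hτ0] at h2
        exact h2
      have h2 : DifferentiableAt ℝ (fun u => W.F ζ (L.e (o.β ^ m • vm m) u)) 0 :=
        diff_chart (fun b => W.F ζ b) hbem hdm (by
          rw [hτ0]
          exact F_diff W hζp hs1)
      have h3 : (fun u => n.N.fn^[m] (W.F ζ (o.β ^ m • L.e (vm m) u)))
          =ᶠ[𝓝 (0 : E2)] fun u => (N ^ m) (W.F ζ (L.e (o.β ^ m • vm m) u)) := by
        filter_upwards [closedBall_mem_nhds (0 : E2) (by norm_num : (0 : ℝ) < 3)] with u hu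
        rw [iter_eq hN, L.e_smul _ _ _ hu]
      have h4 : fderiv ℝ (fun u => n.N.fn^[m] (W.F ζ (o.β ^ m • L.e (vm m) u))) 0
          = (N ^ m) ∘L (Fm m ∘L Dm m) := by
        rw [h3.fderiv_eq, ← h1]
        exact ((N ^ m).hasFDerivAt.comp (0 : E2) h2.hasFDerivAt).fderiv
      have h5 := hest 0 (by simp)
      have h6 := norm_fderiv_sub (fun u => n.N.fn^[m] (W.F ζ (o.β ^ m • L.e (vm m) u)))
        (fun u => n.x (L.e v u)) 0
      rw [h4] at h6
      rw [h6]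
      exact h5
    · -- `B_k ∘ D(x ∘ e (k • y)) = G y`
      have e1 : (k₁ * o.β ^ m * k₂) • (k₂⁻¹ • vm m) = k₁ • (o.β ^ m • vm m) := by
        rw [mul_smul, mul_smul, smul_inv_smul]
      have e2 : L.em ((k₁ * o.β ^ m * k₂) • (k₂⁻¹ • vm m)) = o.neg := by
        rw [e1, L.em_smul k₁, hbem, ← L.em_smul, hw1em]
      have e3 : L.ep (k₂⁻¹ • vm m) = o.pos := by
        rw [L.ep_smul, hvmep, hvep, inv_smul_smul]
      have h1 := Bm_eq W (k₁ * o.β ^ m * k₂) e3 e2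
      rw [e1] at h1
      have e4 : L.em (k₁ • (o.β ^ m • vm m)) = L.em (k₁ • y1) := by
        rw [L.em_smul k₁, L.em_smul k₁, hbem]
      have hdm' : (0 : E2) ∈ L.dm (k₁ • (o.β ^ m • vm m)) (k₁ • y1) := by
        refine ⟨by simp, ?_⟩
        obtain ⟨w, hw, hw'⟩ := hdm.2
        refine ⟨w, hw, ?_⟩
        rw [L.e_smul k₁ y1 w (ball_subset_closedBall hw), hw',
          L.e_smul k₁ (o.β ^ m • vm m) 0 (by simp)]
      have hτ' : L.τ (k₁ • (o.β ^ m • vm m)) (k₁ • y1) 0 = s m := by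
        rw [L.tau_smul k₁ hdm, hτ0]
      have h2 := fderiv_chart n.x e4 hdm' (by
        rw [hτ']
        exact nor_diff n hw1em (ball_subset_ball (by norm_num) hs1))
      rw [hτ'] at h2
      have h3 : fderiv ℝ (L.τ (k₁ • (o.β ^ m • vm m)) (k₁ • y1)) 0 = Dm m := by
        refine Filter.EventuallyEq.fderiv_eq ?_
        filter_upwards [(L.isOpen_dm (o.β ^ m • vm m) y1).mem_nhds hdm] with u hu
        exact L.tau_smul k₁ hu
      rw [h3] at h2
      rw [← h2]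
      exact h1
  -- the limit of `N^m F_m D_m`
  have htlim : Tendsto (fun m : ℕ => (N ^ m) ∘L (Fm m ∘L Dm m)) atTop (𝓝 V) := by
    rw [tendsto_iff_norm_sub_tendsto_zero]
    have h1 : Tendsto (fun m : ℕ => C * Real.exp (-c * o.l * m)) atTop (𝓝 0) := by
      have h2 : Tendsto (fun m : ℕ => c * o.l * (m : ℝ)) atTop atTop :=
        tendsto_natCast_atTop_atTop.const_mul_atTop (mul_pos hc o.ax.pos)
      have h3 := (Real.tendsto_exp_neg_atTop_nhds_zero.comp h2).const_mul C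
      rw [mul_zero] at h3
      refine h3.congr fun m => ?_
      simp only [Function.comp_apply]
      congr 2
      ring
    refine squeeze_zero' (Eventually.of_forall fun m => norm_nonneg _) ?_ h1
    filter_upwards [hmain] with m hm
    exact hm.1
  -- matrices
  have hAdet : (mx (fderiv ℝ (fun u => n.x (L.e (k₁ • y1) u)) 0)).det ≠ 0 := by
    rw [← det_eq]
    exact n.deriv _ hw1em 0 (by simp)
  have hVdet' : (mx V).det ≠ 0 := by rwa [← det_eq]
  have hE1 : Tendsto (fun m => mx (Fm m) * (mx (Am m))⁻¹) atTop (𝓝 (mx (W.Bm k₁))) := by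
    have h1 := (mx_tendsto hFlim).mul (inv_tendsto' (mx_tendsto hAlim) hAdet)
    have h2 : mx (W.Bm k₁) = mx (W.G y1)
        * (mx (fderiv ℝ (fun u => n.x (L.e (k₁ • y1) u)) 0))⁻¹ := by
      have h3 := congrArg mx (Bm_eq W k₁ hy1ep hw1em)
      rw [mx_comp] at h3
      rw [← h3, mul_assoc, Matrix.mul_nonsing_inv _ (isUnit_iff_ne_zero.2 hAdet), mul_one]
    rw [h2]
    exact h1
  have hE2 : Tendsto (fun m : ℕ => mx (Gm m) * (mx ((N ^ m) ∘L (Fm m ∘L Dm m)))⁻¹) atTop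
      (𝓝 (mx (W.Bm k₂))) := by
    have h1 := (mx_tendsto hGlim).mul (inv_tendsto' (mx_tendsto htlim) hVdet')
    have h2 : mx (W.Bm k₂) = mx (W.G (k₂⁻¹ • v)) * (mx V)⁻¹ := by
      have h3 := congrArg mx (Bm_eq W k₂ (y := k₂⁻¹ • v)
        (by rw [L.ep_smul, hvep, inv_smul_smul]) (by rw [smul_inv_smul, hvem]))
      rw [mx_comp, smul_inv_smul] at h3
      rw [← h3, mul_assoc, Matrix.mul_nonsing_inv _ (isUnit_iff_ne_zero.2 hVdet'), mul_one]
    rw [h2]
    exact h1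
  refine ⟨fun m => mx (Fm m) * (mx (Am m))⁻¹ - mx (W.Bm k₁),
    fun m => mx (Gm m) * (mx ((N ^ m) ∘L (Fm m ∘L Dm m)))⁻¹ - mx (W.Bm k₂), ?_, ?_, ?_⟩
  · have := hE1.sub_const (mx (W.Bm k₁))
    rwa [sub_self] at this
  · have := hE2.sub_const (mx (W.Bm k₂))
    rwa [sub_self] at this
  · have hdett : ∀ᶠ m : ℕ in atTop, (mx ((N ^ m) ∘L (Fm m ∘L Dm m))).det ≠ 0 := by
      have h1 : Continuous fun a : Matrix (Fin 2) (Fin 2) ℝ => a.det :=
        Continuous.matrix_det continuous_id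
      exact ((h1.tendsto _).comp (mx_tendsto htlim)).eventually_ne hVdet'
    have hneg : ∀ᶠ m : ℕ in atTop, (k₁ * o.β ^ m * k₂) • o.pos ≠ o.neg := by
      have h1 : Tendsto (fun m : ℕ => k₁ • (o.β ^ m • (k₂ • o.pos))) atTop
          (𝓝 (k₁ • o.pos)) :=
        ((continuous_const_smul k₁).tendsto _).comp (north_tendsto o h₂)
      filter_upwards [h1.eventually_ne h₁] with m hm
      rw [mul_smul, mul_smul]
      exact hm
    filter_upwards [hmain, hdett, hneg] with m hm hm2 hm3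
    obtain ⟨-, h1, h2⟩ := hm
    refine ⟨hm3, ?_⟩
    rw [add_sub_cancel, add_sub_cancel, ← mx_pow]
    refine comp_alg (a := mx (Am m)) (d := mx (Dm m)) ?_ ?_ ?_ hm2
    · rw [← mx_comp, ← mx_comp, h1]
    · rw [mx_comp, mx_comp]
    · rw [← det_eq]
      exact n.deriv _ hw1em _ (ball_subset_ball (by norm_num) h2)

end Vale.Agent.P207.N3.H310
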