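import Vale.Agent.P207.N3.H310.Fw
import Vale.Agent.P207.N3.H790.NFdyn

/-!
# P207, line N3 (P4, E3): the forward chart at the fixed point of `k β^m`

`form_basic`: with `ζ = k⁻¹ θ⁻`, `f = hol θ⁻ (hom k)`, `θ = k β^m`, `Φ = F ζ ∘ e (hol ζ x₀)`,
`Ψ = N^m ∘ F ζ ∘ β^m ∘ e f`: `Ψ = N^m ∘ Φ ∘ G`, `θ ∘ e f = e f ∘ G`, `G u = u`.
-/

open Set Filter Topology Metric MeasureTheory
open scoped ContDiff

set_option linter.unusedSectionVars false

noncomputable section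

namespace Vale.Agent.P207.N3.H310

open Vale.Agent.P207.N3.H147

variable {Γ X B : Type} [Group Γ] [MetricSpace X] [ProperSpace X] [MulAction Γ X]
  [IsIsometricSMul Γ X] [TopologicalSpace B] [CompactSpace B] [T2Space B] [MulAction Γ B]
  [ContinuousConstSMul Γ B] {L : Leaf Γ X B} {o : Orb L} {n : Nor L o} {c : ℝ}

/-- one `m` -/
theorem form_one (W : Fwd o n.x n.N.fn c) {k : Γ} (hk : k • o.pos ≠ o.neg) {m : ℕ} {z : X}
    {l : ℝ} {a : O2} (hz : L.IsAxis (k * o.β ^ m) z l a) (hne : L.em z ≠ k • o.pos)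
    (hep : L.ep z ∈ L.e (L.hol (L.em z) (W.hom k)) '' ball (0 : E2) 3)
    (hc : ∀ u ∈ closedBall (0 : E2) 3, o.β ^ m • L.e (L.hol (L.em z) (W.hom k)) u
      ∈ L.e (L.hol (k⁻¹ • L.em z) o.x) '' ball 0 1) :
    ∃ (R : E2 ≃L[ℝ] E2) (DG : E2 →L[ℝ] E2),
      DifferentiableAt ℝ (fun v => W.F (k⁻¹ • L.em z) (L.e (L.hol (k⁻¹ • L.em z) o.x) v))
        (L.τ z (L.hol (L.em z) (W.hom k)) 0) ∧
      n.N.fn^[m] (W.F (k⁻¹ • L.em z) (o.β ^ m • L.e (L.hol (L.em z) (W.hom k))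
          (L.τ z (L.hol (L.em z) (W.hom k)) 0)))
        = n.N.fn^[m] (W.F (k⁻¹ • L.em z) (L.e (L.hol (k⁻¹ • L.em z) o.x)
          (L.τ z (L.hol (L.em z) (W.hom k)) 0))) ∧
      fderiv ℝ (fun v => n.N.fn^[m] (W.F (k⁻¹ • L.em z)
          (o.β ^ m • L.e (L.hol (L.em z) (W.hom k)) v))) (L.τ z (L.hol (L.em z) (W.hom k)) 0)
        = fderiv ℝ (n.N.fn^[m]) (W.F (k⁻¹ • L.em z) (L.e (L.hol (k⁻¹ • L.em z) o.x)
            (L.τ z (L.hol (L.em z) (W.hom k)) 0)))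
          * (fderiv ℝ (fun v => W.F (k⁻¹ • L.em z) (L.e (L.hol (k⁻¹ • L.em z) o.x) v))
            (L.τ z (L.hol (L.em z) (W.hom k)) 0) * DG) ∧
      (R : E2 →L[ℝ] E2) * ret0 L (k * o.β ^ m) z = DG * R := by
  set ζ := k⁻¹ • L.em z with hζ
  set f := L.hol (L.em z) (W.hom k) with hf
  set g := L.hol ζ o.x with hg
  set u := L.τ z f 0 with hu
  set θ := k * o.β ^ m with hθ
  -- end points
  have hζp : ζ ≠ o.pos := by
    intro h
    rw [hζ, inv_smul_eq_iff] at h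
    exact hne h
  have hkx : L.ep (k • o.x) = k • o.pos := L.ep_smul k o.x
  have hh1 : o.neg ≠ L.ep (k • o.x) := by rw [hkx]; exact hk.symm
  have hh2 : L.em z ≠ L.ep (k • o.x) := by rw [hkx]; exact hne
  have hhom : L.ep (W.hom k) = k • o.pos := hom_ep W k hk
  have hfem : L.em f = L.em z := L.hol_em _ _ (by rw [hhom]; exact hne)
  have hfz : L.em z = L.em f := hfem.symm
  have hgem : L.em g = ζ := hol_em' hζp
  have hkg : k • g = f := by
    have h1 := L.hol_smul k ζ o.x hζp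
    rw [hζ, smul_inv_smul] at h1
    rw [hg, ← h1, hf, Fwd.hom, L.hol_hol _ _ _ hh1 hh2]
  have hθem : θ • L.em z = L.em z := Ax.smul_em hz
  have hθep : θ • L.ep z = L.ep z := Ax.smul_ep hz
  have hβem : L.em (o.β ^ m • f) = ζ := by
    rw [L.em_smul, hfem, hζ, eq_inv_smul_iff, smul_smul, hθem]
  -- the point `u`
  have h0dm : (0 : E2) ∈ L.dm z f := by
    refine ⟨by simp, ?_⟩
    rw [L.e_zero]
    exact hep
  have huf : L.e f u = L.ep z := by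
    rw [hu, L.e_tau h0dm, L.e_zero]
  have hu3 : u ∈ ball (0 : E2) 3 := L.tau_mem h0dm
  -- the map `G`
  set G := L.τ (o.β ^ m • f) g with hG
  have hGdm : ∀ v ∈ ball (0 : E2) 3, v ∈ L.dm (o.β ^ m • f) g := by
    intro v hv
    refine ⟨hv, ?_⟩
    obtain ⟨w, hw, he⟩ := hc v (ball_subset_closedBall hv)
    refine ⟨w, ball_subset_ball (by norm_num) hw, ?_⟩
    rw [L.e_smul _ _ _ (ball_subset_closedBall hv)]
    exact he
  have hGe : ∀ v ∈ ball (0 : E2) 3, L.e g (G v) = o.β ^ m • L.e f v := by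
    intro v hv
    rw [hG, L.e_tau (hGdm v hv), L.e_smul _ _ _ (ball_subset_closedBall hv)]
  have hG3 : ∀ v ∈ ball (0 : E2) 3, G v ∈ ball (0 : E2) 3 := fun v hv => L.tau_mem (hGdm v hv)
  have hG1 : ∀ v ∈ ball (0 : E2) 3, G v ∈ ball (0 : E2) 1 := by
    intro v hv
    obtain ⟨w, hw, he⟩ := hc v (ball_subset_closedBall hv)
    have h1 : G v = w := L.e_inj g (ball_subset_closedBall (hG3 v hv))
      (ball_subset_closedBall (ball_subset_ball (by norm_num) hw)) (by rw [hGe v hv, he])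
    rw [h1]
    exact hw
  have hθe : ∀ v ∈ ball (0 : E2) 3, θ • L.e f v = L.e f (G v) := by
    intro v hv
    rw [hθ, mul_smul, ← hGe v hv, ← L.e_smul _ _ _ (ball_subset_closedBall (hG3 v hv)), hkg]
  have hGu : G u = u := by
    refine L.e_inj f (ball_subset_closedBall (hG3 u hu3)) (ball_subset_closedBall hu3) ?_
    rw [← hθe u hu3, huf, hθep]
  have hu1 : u ∈ ball (0 : E2) 1 := by
    have := hG1 u hu3
    rwa [hGu] at this
  have hGd : HasFDerivAt G (fderiv ℝ G u) u :=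
    (L.tau_diff (by rw [hβem, hgem]) (hGdm u hu3)).hasFDerivAt
  -- the chart `Φ`
  have hΦ : DifferentiableAt ℝ (fun v => W.F ζ (L.e g v)) u := F_diff W hζp hu1
  -- the conjugation `R`
  have hRdet : (fderiv ℝ (L.τ z f) 0).det ≠ 0 := det_tau hfz h0dm
  refine ⟨ContinuousLinearMap.toContinuousLinearEquivOfDetNeZero _ hRdet, fderiv ℝ G u, hΦ,
    ?_, ?_, ?_⟩
  · rw [← hGe u hu3, hGu]
  · have e1 : (fun v => n.N.fn^[m] (W.F ζ (o.β ^ m • L.e f v))) =ᶠ[𝓝 u]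
        (n.N.fn^[m] ∘ ((fun v => W.F ζ (L.e g v)) ∘ G)) := by
      filter_upwards [isOpen_ball.mem_nhds hu3] with v hv
      simp only [Function.comp_apply]
      rw [hGe v hv]
    rw [e1.fderiv_eq]
    have d2 : HasFDerivAt (fun v => W.F ζ (L.e g v)) (fderiv ℝ (fun v => W.F ζ (L.e g v)) u)
        (G u) := by
      rw [hGu]
      exact hΦ.hasFDerivAt
    have d3 : HasFDerivAt (n.N.fn^[m]) (fderiv ℝ (n.N.fn^[m]) (W.F ζ (L.e g u)))
        (((fun v => W.F ζ (L.e g v)) ∘ G) u) := by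
      rw [Function.comp_apply, hGu]
      exact (((H790.NF.contDiff_fn_iter n.N m).contDiffAt).differentiableAt
        (by simp)).hasFDerivAt
    exact (d3.comp u (d2.comp u hGd)).fderiv
  · -- conjugation of the return map
    rw [ContinuousLinearMap.coe_toContinuousLinearEquivOfDetNeZero, ret0]
    have hem' : L.em (θ • z) = L.em z := by rw [L.em_smul, hθem]
    have hep' : L.ep (θ • z) = L.ep z := by rw [L.ep_smul, hθep]
    have h0' : (0 : E2) ∈ L.dm (θ • z) z := zero_dm hep'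
    have t0 : L.τ (θ • z) z 0 = 0 := tau_zero hep'
    have d1 : HasFDerivAt (L.τ (θ • z) z) (fderiv ℝ (L.τ (θ • z) z) 0) 0 :=
      (L.tau_diff hem' h0').hasFDerivAt
    have d2 : HasFDerivAt (L.τ z f) (fderiv ℝ (L.τ z f) 0) (L.τ (θ • z) z 0) := by
      rw [t0]
      exact (L.tau_diff hfz h0dm).hasFDerivAt
    have d3 : HasFDerivAt (L.τ z f) (fderiv ℝ (L.τ z f) 0) 0 :=
      (L.tau_diff hfz h0dm).hasFDerivAt
    have e1 : (L.τ z f ∘ L.τ (θ • z) z) =ᶠ[𝓝 0] (G ∘ L.τ z f) := by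
      have hc1 : ContinuousAt (L.τ (θ • z) z) 0 := d1.continuousAt
      have h1 : ∀ᶠ v in 𝓝 (0 : E2), L.τ (θ • z) z v ∈ L.dm z f := by
        refine hc1.eventually ?_
        rw [t0]
        exact (L.isOpen_dm z f).mem_nhds h0dm
      filter_upwards [(L.isOpen_dm _ _).mem_nhds h0', h1, (L.isOpen_dm _ _).mem_nhds h0dm]
        with v hv1 hv2 hv3
      simp only [Function.comp_apply]
      refine L.e_inj f (ball_subset_closedBall (L.tau_mem hv2))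
        (ball_subset_closedBall (hG3 _ (L.tau_mem hv3))) ?_
      rw [L.e_tau hv2, L.e_tau hv1, L.e_smul _ _ _ (ball_subset_closedBall hv3.1),
        ← hθe _ (L.tau_mem hv3), L.e_tau hv3]
    have h2 := (d2.comp (0 : E2) d1).congr_of_eventuallyEq e1.symm
    exact h2.unique (hGd.comp (0 : E2) d3)

/-- **(F)** of the closing formula -/
theorem form_basic (o : Orb L) (n : Nor L o) {c : ℝ} (W : H147.Fwd o n.x n.N.fn c) (_hc : 0 < c)
    (k : Γ) (hk : k • o.pos ≠ o.neg) (z : ℕ → X) (lz : ℕ → ℝ) (az : ℕ → O2)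
    (hz : ∀ᶠ m : ℕ in atTop, L.IsAxis (k * o.β ^ m) (z m) (lz m) (az m))
    (hem : Tendsto (fun m => L.em (z m)) atTop (𝓝 o.neg))
    (hep : Tendsto (fun m => L.ep (z m)) atTop (𝓝 (k • o.pos))) :
    ∃ (u : ℕ → E2) (R : ℕ → E2 ≃L[ℝ] E2) (DG : ℕ → E2 →L[ℝ] E2), Tendsto u atTop (𝓝 0) ∧
      ∀ᶠ m : ℕ in atTop,
        DifferentiableAt ℝ
          (fun v => W.F (k⁻¹ • L.em (z m)) (L.e (L.hol (k⁻¹ • L.em (z m)) o.x) v)) (u m) ∧
        n.N.fn^[m] (W.F (k⁻¹ • L.em (z m))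
            (o.β ^ m • L.e (L.hol (L.em (z m)) (W.hom k)) (u m)))
          = n.N.fn^[m] (W.F (k⁻¹ • L.em (z m)) (L.e (L.hol (k⁻¹ • L.em (z m)) o.x) (u m))) ∧
        fderiv ℝ (fun v => n.N.fn^[m] (W.F (k⁻¹ • L.em (z m))
            (o.β ^ m • L.e (L.hol (L.em (z m)) (W.hom k)) v))) (u m)
          = fderiv ℝ (n.N.fn^[m]) (W.F (k⁻¹ • L.em (z m))
              (L.e (L.hol (k⁻¹ • L.em (z m)) o.x) (u m)))
            * (fderiv ℝ (fun v => W.F (k⁻¹ • L.em (z m))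
              (L.e (L.hol (k⁻¹ • L.em (z m)) o.x) v)) (u m) * DG m) ∧
        (R m : E2 →L[ℝ] E2) * ret0 L (k * o.β ^ m) (z m) = DG m * R m := by
  -- limits
  have hhom : L.ep (W.hom k) = k • o.pos := hom_ep W k hk
  have hhem : L.em (W.hom k) = o.neg := hom_em W k hk
  have hζ : k⁻¹ • o.neg ≠ o.pos := inv_ne_pos (n := n) k hk
  have hne : ∀ᶠ m in atTop, L.em (z m) ≠ k • o.pos := hem.eventually_ne hk.symm
  have hf : Tendsto (fun m => L.hol (L.em (z m)) (W.hom k)) atTop (𝓝 (W.hom k)) := by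
    have h1 := hol_tendsto (y := W.hom k) hem (by rw [hhom]; exact hk.symm)
    rwa [← hhem, L.hol_self] at h1
  have hep' : Tendsto (fun m => L.ep (z m)) atTop (𝓝 (L.e (W.hom k) 0)) := by
    rw [L.e_zero, hhom]
    exact hep
  obtain ⟨h3, h4⟩ := L.inv_tendsto hf hep' (by simp)
  -- the compact set
  obtain ⟨K, hKn, hKc, hKs⟩ := exists_mem_nhds_isClosed_subset
    (isOpen_compl_singleton.mem_nhds hζ : ({o.pos} : Set B)ᶜ ∈ 𝓝 (k⁻¹ • o.neg))
  have hKp : o.pos ∉ K := fun h => hKs h rfl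
  have hKm : ∀ᶠ m in atTop, k⁻¹ • L.em (z m) ∈ K :=
    (((continuous_const_smul k⁻¹).tendsto o.neg).comp hem).eventually hKn
  obtain ⟨C, hC⟩ := W.conv K hKc.isCompact hKp {W.hom k} isCompact_singleton
    (by rintro y rfl; exact hhem) 0
  have hpt : ∀ᶠ m : ℕ in atTop, ∃ (R : E2 ≃L[ℝ] E2) (DG : E2 →L[ℝ] E2),
      DifferentiableAt ℝ
        (fun v => W.F (k⁻¹ • L.em (z m)) (L.e (L.hol (k⁻¹ • L.em (z m)) o.x) v))
        (L.τ (z m) (L.hol (L.em (z m)) (W.hom k)) 0) ∧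
      n.N.fn^[m] (W.F (k⁻¹ • L.em (z m)) (o.β ^ m • L.e (L.hol (L.em (z m)) (W.hom k))
          (L.τ (z m) (L.hol (L.em (z m)) (W.hom k)) 0)))
        = n.N.fn^[m] (W.F (k⁻¹ • L.em (z m)) (L.e (L.hol (k⁻¹ • L.em (z m)) o.x)
          (L.τ (z m) (L.hol (L.em (z m)) (W.hom k)) 0))) ∧
      fderiv ℝ (fun v => n.N.fn^[m] (W.F (k⁻¹ • L.em (z m))
          (o.β ^ m • L.e (L.hol (L.em (z m)) (W.hom k)) v)))
          (L.τ (z m) (L.hol (L.em (z m)) (W.hom k)) 0)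
        = fderiv ℝ (n.N.fn^[m]) (W.F (k⁻¹ • L.em (z m)) (L.e (L.hol (k⁻¹ • L.em (z m)) o.x)
            (L.τ (z m) (L.hol (L.em (z m)) (W.hom k)) 0)))
          * (fderiv ℝ (fun v => W.F (k⁻¹ • L.em (z m))
            (L.e (L.hol (k⁻¹ • L.em (z m)) o.x) v))
            (L.τ (z m) (L.hol (L.em (z m)) (W.hom k)) 0) * DG) ∧
      (R : E2 →L[ℝ] E2) * ret0 L (k * o.β ^ m) (z m) = DG * R := by
    filter_upwards [hz, hne, h3, hKm, hC] with m h5 h6 h7 h8 h9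
    obtain ⟨_, h10, _⟩ := h9 _ h8 _ rfl
    have e1 : (o.β ^ m)⁻¹ • k⁻¹ • L.em (z m) = L.em (z m) := by
      rw [smul_smul, ← mul_inv_rev, inv_smul_eq_iff]
      exact (Ax.smul_em h5).symm
    rw [e1] at h10
    exact form_one W hk h5 h6 h7 h10
  obtain ⟨M, hM⟩ := eventually_atTop.1 hpt
  have h' : ∀ m : ℕ, ∃ (R : E2 ≃L[ℝ] E2) (DG : E2 →L[ℝ] E2), M ≤ m →
      DifferentiableAt ℝ
        (fun v => W.F (k⁻¹ • L.em (z m)) (L.e (L.hol (k⁻¹ • L.em (z m)) o.x) v))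
        (L.τ (z m) (L.hol (L.em (z m)) (W.hom k)) 0) ∧
      n.N.fn^[m] (W.F (k⁻¹ • L.em (z m)) (o.β ^ m • L.e (L.hol (L.em (z m)) (W.hom k))
          (L.τ (z m) (L.hol (L.em (z m)) (W.hom k)) 0)))
        = n.N.fn^[m] (W.F (k⁻¹ • L.em (z m)) (L.e (L.hol (k⁻¹ • L.em (z m)) o.x)
          (L.τ (z m) (L.hol (L.em (z m)) (W.hom k)) 0))) ∧
      fderiv ℝ (fun v => n.N.fn^[m] (W.F (k⁻¹ • L.em (z m))
          (o.β ^ m • L.e (L.hol (L.em (z m)) (W.hom k)) v)))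
          (L.τ (z m) (L.hol (L.em (z m)) (W.hom k)) 0)
        = fderiv ℝ (n.N.fn^[m]) (W.F (k⁻¹ • L.em (z m)) (L.e (L.hol (k⁻¹ • L.em (z m)) o.x)
            (L.τ (z m) (L.hol (L.em (z m)) (W.hom k)) 0)))
          * (fderiv ℝ (fun v => W.F (k⁻¹ • L.em (z m))
            (L.e (L.hol (k⁻¹ • L.em (z m)) o.x) v))
            (L.τ (z m) (L.hol (L.em (z m)) (W.hom k)) 0) * DG) ∧
      (R : E2 →L[ℝ] E2) * ret0 L (k * o.β ^ m) (z m) = DG * R := fun m => by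
    by_cases h : M ≤ m
    · obtain ⟨R, DG, hh⟩ := hM m h
      exact ⟨R, DG, fun _ => hh⟩
    · exact ⟨ContinuousLinearEquiv.refl ℝ E2, 0, fun h' => absurd h' h⟩
  choose R DG hRD using h'
  refine ⟨fun m => L.τ (z m) (L.hol (L.em (z m)) (W.hom k)) 0, R, DG, ?_, ?_⟩
  · refine h4.congr fun m => ?_
    rw [L.tau_eq, L.e_zero]
  · filter_upwards [eventually_ge_atTop M] with m hm
    exact hRD m hm

end Vale.Agent.P207.N3.H310
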