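import Vale.Agent.P207.N3.H147.RetData
import Vale.Agent.P207.N3.H992.FwdK

/-!
# P207, line N3 (P4, E2): the germs `F ζ` of the forward coordinates near `β⁺`

`Germ o x N c`: the fields `base`, `smooth`, `cont`, `deriv` of `Fwd` and the convergence of
`N^m ∘ F ζ ∘ β^m` on the charts `e (ym m w)`, `w = hol ζ o.x`, `ym m w = hol (β^{-m} ζ) o.x`.
-/

open Set Filter Topology Metric MeasureTheory
open scoped ContDiff
open Vale.Agent.P207.N3.H992 (SB BF Cv CvK Data DataK IsNF SB_iff Cv_iff CvK_iff forwardK)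

set_option linter.unusedSectionVars false

noncomputable section

namespace Vale.Agent.P207.N3.H310

open Vale.Agent.P207.N3.H147

variable {Γ X B : Type} [Group Γ] [MetricSpace X] [ProperSpace X] [MulAction Γ X]
  [IsIsometricSMul Γ X] [TopologicalSpace B] [CompactSpace B] [T2Space B] [MulAction Γ B]
  [ContinuousConstSMul Γ B] {L : Leaf Γ X B}

/-- the germs of the forward coordinates -/
structure Germ (o : Orb L) (x : B → E2) (N : E2 → E2) (c : ℝ) where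
  F : B → B → E2
  base : ∀ ζ, ζ ≠ o.pos → F ζ o.pos = 0
  smooth : ∀ ζ, ζ ≠ o.pos → ContDiffOn ℝ ∞ (fun u => F ζ (L.e (L.hol ζ o.x) u)) (ball 0 1)
  cont : ∀ k : ℕ, ContinuousOn (fun p : B × E2 =>
    iteratedFDeriv ℝ k (fun u => F p.1 (L.e (L.hol p.1 o.x) u)) p.2) ({o.pos}ᶜ ×ˢ ball 0 1)
  deriv : ∀ ζ, ζ ≠ o.pos → (fderiv ℝ (fun u => F ζ (L.e (L.hol ζ o.x) u)) 0).det ≠ 0
  itS : ∀ m : ℕ, ∀ w ∈ Fs o, ContDiffOn ℝ ∞
    (fun u => N^[m] (F (L.em w) (o.β ^ m • L.e (ym o m w) u))) (ball 0 (3 / 2))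
  itC : ∀ K : Set X, IsCompact K → K ⊆ Fs o → ∀ k : ℕ, ∃ C, 0 ≤ C ∧ ∀ m : ℕ, ∀ w ∈ K,
    ∀ u ∈ ball (0 : E2) (3 / 2),
      ‖iteratedFDeriv ℝ k (fun u => N^[m] (F (L.em w) (o.β ^ m • L.e (ym o m w) u))) u
        - iteratedFDeriv ℝ k (fun u => x (L.e o.x u)) u‖ ≤ C * Real.exp (-c * o.l * m)

variable (o : Orb L)

theorem injective_of_det_ne {A : E2 →L[ℝ] E2} (h : A.det ≠ 0) : Function.Injective A := by
  by_contra hA
  have h1 : LinearMap.ker (A : E2 →ₗ[ℝ] E2) ≠ ⊥ := fun h2 => hA (LinearMap.ker_eq_bot.1 h2)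
  exact h (LinearMap.det_eq_zero_iff_ker_ne_bot.2 h1)

theorem det_ne_of_injective {A : E2 →L[ℝ] E2} (h : Function.Injective A) : A.det ≠ 0 := by
  intro h0
  have h1 := LinearMap.bot_lt_ker_of_det_eq_zero (f := (A : E2 →ₗ[ℝ] E2)) h0
  have h2 : LinearMap.ker (A : E2 →ₗ[ℝ] E2) = ⊥ := LinearMap.ker_eq_bot.2 h
  rw [h2] at h1
  exact lt_irrefl _ h1

/-! ### The data of H992 with parameters in `Fs o` -/

instance : LocallyCompactSpace (Fs o) := (isClosed_Fs o).isClosedEmbedding_subtypeVal.locallyCompactSpace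

theorem pow_e_ym {o : Orb L} (hl : L.t1 ≤ o.l) (m : ℕ) (w : X) {u : E2}
    (hu : u ∈ closedBall (0 : E2) 3) :
    ∃ v ∈ ball (0 : E2) 1, o.β ^ (m + 1) • L.e (ym o (m + 1) w) u = L.e w v := by
  induction m generalizing u with
  | zero =>
    refine ⟨Gm o (0, w) u, g0_mem hl _ hu, ?_⟩
    rw [zero_add, pow_one, ← zero_add 1, smul_e_ym o hl 0 w hu, ym_zero]
  | succ m ih =>
    rw [pow_succ, mul_smul, smul_e_ym o hl (m + 1) w hu]
    exact ih (ball_subset_closedBall (ball_subset_ball (by norm_num) (g0_mem hl _ hu)))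

/-- the data with parameters in `Fs o` -/
theorem exists_dataK (hl : L.t1 ≤ o.l) {σ : ℝ} (hσ : 0 < σ)
    (h : ∀ K : Set X, IsCompact K → K ⊆ Fs o → ∃ d : Data E2 K (3 / 2) (1 / 2) σ,
      (∀ p : ℕ × K, d.G p = Gm o (p.1, p.2.1)) ∧ d.f = fm o) :
    ∃ d : DataK E2 (Fs o) (3 / 2) (1 / 2) σ,
      (∀ p : ℕ × Fs o, d.G p = Gm o (p.1, p.2.1)) ∧ d.f = fm o := by
  have hf : SB (3 / 2) (fm o) := g0_sb o hl o.x (by norm_num)
  have hyc : Continuous fun p : ℕ × Fs o => ym o p.1 p.2.1 :=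
    pair_cont fun m => (ym_cont o m).comp continuous_subtype_val
  refine ⟨{
    R_pos := by norm_num
    ρ_nonneg := by norm_num
    ρ_lt := by norm_num
    σ_pos := hσ
    G := fun p => Gm o (p.1, p.2.1)
    f := fm o
    f_sb := hf
    cv := ?_
    G_map := fun p x hx => ball_subset_ball (by norm_num)
      (g0_mem hl _ (cb3 (by norm_num) hx))
    f_map := fun x hx => ball_subset_ball (by norm_num)
      (g0_mem hl _ (cb3 (by norm_num) hx))
    G_der := fun p x hx => ?_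
    G_zero := fun p => g0_zero _
    f_zero := g0_zero _
    D := fun p => g0inv o (ym o p.1 p.2.1)
    D_cont := (g0inv_cont o).comp hyc
    D_bdd := ?_
    D_left := fun p => g0inv_left o _ }, fun p => rfl, rfl⟩
  · refine (CvK_iff hσ hf).2 ⟨fun p => (g0_smooth hl _).mono (ball_subset_ball (by norm_num)),
      fun j => ⟨?_, fun K hK => ?_⟩⟩
    · exact tau_cont_comp ((φ_cont _).comp ((L.rot_cont _).comp hyc)) hyc
        (fun p => by rw [Function.comp_apply, Function.comp_apply, L.em_φ, L.em_rot]) j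
        (fun q hq => g0_mem_dm hl _ (ball_subset_ball (by norm_num) hq.2))
    · obtain ⟨d, hd1, hd2⟩ := h ((fun w : Fs o => (w : X)) '' K)
        (hK.image continuous_subtype_val) (by rintro _ ⟨w, _, rfl⟩; exact w.2)
      obtain ⟨C, hC⟩ := (((Cv_iff hσ d.f_sb).1 d.cv).2 j).2
      refine ⟨C, fun m ξ hξ x hx => ?_⟩
      have h1 := hC (m, ⟨ξ, mem_image_of_mem _ hξ⟩) x hx
      rw [hd1, hd2] at h1
      exact h1
  · obtain ⟨d, hd1, hd2⟩ := h {(p.2 : X)} isCompact_singleton (singleton_subset_iff.2 p.2.2)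
    have h1 := d.G_der (p.1, ⟨p.2, rfl⟩) x hx
    rw [hd1] at h1
    exact h1
  · intro K hK
    obtain ⟨C, _, hC⟩ := g0inv_bdd o
    exact ⟨C, fun m ξ _ => hC _⟩

/-! ### The normal coordinate in the chart of the axis frame -/

variable {o} (n : Nor L o)

theorem isNF_of_OK {N : H790.NF} (h : N.OK) : IsNF N.fn := by
  cases N with
  | tri μ₁ μ₂ a k => exact IsNF.tri μ₁ μ₂ a k h.1 h.2.1 h.2.2
  | cx c s => exact IsNF.cx c s h.1 h.2

theorem chart_contDiff (y : X) (hy : L.em y = o.neg) :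
    ContDiffOn ℝ ∞ (fun u => n.x (L.e y u)) (ball 0 3) := n.smooth y hy

theorem chart_sb {r : ℝ} (hr : r < 3) : SB r (fun u => n.x (L.e o.x u)) := by
  have h1 := chart_contDiff n o.x rfl
  rw [SB_iff]
  refine ⟨h1.mono (ball_subset_ball hr.le), fun j => ?_⟩
  have h2 : ContinuousOn (iteratedFDeriv ℝ j (fun u => n.x (L.e o.x u))) (ball 0 3) := by
    have h3 : ContDiffOn ℝ j (fun u => n.x (L.e o.x u)) (ball 0 3) :=
      h1.of_le (by exact_mod_cast le_top)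
    have h5 := h3.continuousOn_iteratedFDerivWithin (m := j) le_rfl isOpen_ball.uniqueDiffOn
    exact h5.congr fun x hx => (iteratedFDerivWithin_of_isOpen j isOpen_ball hx).symm
  obtain ⟨C, hC⟩ := (isCompact_closedBall (0 : E2) r).exists_bound_of_continuousOn
    (h2.mono (closedBall_subset_ball hr))
  exact ⟨C, fun x hx => hC x (ball_subset_closedBall hx)⟩

theorem e_fm (hl : L.t1 ≤ o.l) {u : E2} (hu : u ∈ closedBall (0 : E2) 3) :
    L.e o.x (fm o u) = o.β • L.e o.x u := by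
  have h := smul_e_ym o hl 0 o.x hu
  rw [ym_x, ym_x, Gm_x] at h
  exact h.symm

theorem chart_eq (hl : L.t1 ≤ o.l) {u : E2} (hu : u ∈ closedBall (0 : E2) 3) :
    n.x (L.e o.x u) = n.N.fn (n.x (L.e o.x (fm o u))) := by
  have h1 : fm o u ∈ closedBall (0 : E2) 3 :=
    ball_subset_closedBall (ball_subset_ball (by norm_num) (g0_mem hl _ hu))
  have h2 : L.e o.x (fm o u) ≠ o.neg := L.e_ne _ _ h1
  rw [← n.equiv _ h2, e_fm hl hu, inv_smul_smul]

/-! ### The germs -/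

/-- the inverse of the chart -/
def ci (L : Leaf Γ X B) (w : X) (η : B) : E2 :=
  Function.invFunOn (L.e w) (closedBall (0 : E2) 3) η

theorem ci_e (w : X) {u : E2} (hu : u ∈ closedBall (0 : E2) 3) : ci L w (L.e w u) = u :=
  (L.e_inj w).leftInvOn_invFunOn hu

open Classical in
/-- the forward coordinates of a family of germs -/
def gF (o : Orb L) (Z : ℕ × Fs o → E2 → E2) (ζ η : B) : E2 :=
  if h : ζ ≠ o.pos then Z (0, ⟨L.hol ζ o.x, hol_mem_Fs o h⟩) (ci L (L.hol ζ o.x) η) else 0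

theorem gF_e (Z : ℕ × Fs o → E2 → E2) {ζ : B} (h : ζ ≠ o.pos) {u : E2}
    (hu : u ∈ closedBall (0 : E2) 3) :
    gF o Z ζ (L.e (L.hol ζ o.x) u) = Z (0, ⟨L.hol ζ o.x, hol_mem_Fs o h⟩) u := by
  rw [gF, dif_pos h, ci_e _ hu]

theorem gF_w (Z : ℕ × Fs o → E2 → E2) (w : Fs o) {u : E2} (hu : u ∈ closedBall (0 : E2) 3) :
    gF o Z (L.em w) (L.e w u) = Z (0, w) u := by
  have h := gF_e Z (ζ := L.em w) w.2.1 hu
  have e1 : (⟨L.hol (L.em w) o.x, hol_mem_Fs o w.2.1⟩ : Fs o) = w := Subtype.ext w.2.2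
  have e2 : L.e (L.hol (L.em w) o.x) u = L.e w u := by rw [w.2.2]
  rw [e1, e2] at h
  exact h

/-- iteration of the recursion -/
theorem gF_iter (hl : L.t1 ≤ o.l) {N : E2 → E2} {Z : ℕ × Fs o → E2 → E2}
    (hZ : ∀ m w, ∀ u ∈ ball (0 : E2) (3 / 2), Z (m + 1, w) u = N (Z (m, w) (Gm o (m, w.1) u)))
    (w : Fs o) (m : ℕ) {u : E2} (hu : u ∈ ball (0 : E2) (3 / 2)) :
    N^[m] (gF o Z (L.em w) (o.β ^ m • L.e (ym o m w) u)) = Z (m, w) u := by
  induction m generalizing u with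
  | zero =>
    rw [Function.iterate_zero, id, pow_zero, one_smul, ym_zero]
    exact gF_w Z w (cb3 (by norm_num) hu)
  | succ m ih =>
    have hu3 : u ∈ closedBall (0 : E2) 3 := cb3 (by norm_num) hu
    have hg : Gm o (m, w.1) u ∈ ball (0 : E2) (3 / 2) :=
      ball_subset_ball (by norm_num) (g0_mem hl _ hu3)
    rw [Function.iterate_succ_apply', pow_succ, mul_smul, smul_e_ym o hl m w hu3, ih hg,
      hZ m w u hu]

/-- the exponent of the rates of the germs depends only on `L` -/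
theorem exists_germ (L : Leaf Γ X B) : ∃ c : ℝ, 0 < c ∧ ∃ l₀ : ℝ, ∀ o : Orb L, l₀ ≤ o.l →
    L.t1 ≤ o.l ∧ ∀ n : Nor L o, Nonempty (Germ o n.x n.N.fn c) := by
  obtain ⟨α, hα, l₀, hd⟩ := exists_data L
  have hχ := L.χ_pos
  refine ⟨α * L.χ / 2, by positivity, l₀, fun o hl => ?_⟩
  obtain ⟨hl1, hd⟩ := hd o hl
  refine ⟨hl1, fun n => ?_⟩
  have hl0 : 0 < o.l := o.ax.pos
  set σ : ℝ := Real.exp (-(α * L.χ * o.l)) with hσ
  set σ' : ℝ := Real.exp (-(α * L.χ / 2) * o.l) with hσ'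
  have h0 : 0 < α * L.χ * o.l := by positivity
  have hσσ' : σ < σ' := by
    rw [hσ, hσ']
    refine Real.exp_lt_exp.2 ?_
    linarith
  have hσ'1 : σ' < 1 := by
    rw [hσ', Real.exp_lt_one_iff]
    linarith
  obtain ⟨d, hdG, hdf⟩ := exists_dataK o hl1 (Real.exp_pos _) hd
  have hh0 : (fun u => n.x (L.e o.x u)) 0 = 0 := by
    simp only [L.e_zero]
    exact n.base
  have hsb := chart_sb n (r := 3 / 2) (by norm_num)
  obtain ⟨Z, hZ1, hZ2, hZ3, hZ4⟩ := forwardK d hσσ' hσ'1 (isNF_of_OK n.ok) hsb hh0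
    (by
      have h1 := n.deriv o.x rfl 0 (mem_ball_self (by norm_num))
      exact injective_of_det_ne h1)
    (fun x hx => by
      rw [hdf]
      exact chart_eq n hl1 (cb3 (by norm_num) hx))
  have hσ'0 : 0 < σ' := Real.exp_pos _
  obtain ⟨hZs, hZc⟩ := (CvK_iff hσ'0 hsb).1 hZ1
  have hrec : ∀ m (w : Fs o), ∀ u ∈ ball (0 : E2) (3 / 2),
      Z (m + 1, w) u = n.N.fn (Z (m, w) (Gm o (m, w.1) u)) := fun m w u hu => by
    rw [hZ2 m w u hu, hdG]
  have hb : ball (0 : E2) 1 ⊆ ball 0 (3 / 2) := ball_subset_ball (by norm_num)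
  have hev : ∀ {ζ : B} (h : ζ ≠ o.pos), ∀ u ∈ ball (0 : E2) 3,
      (fun u => gF o Z ζ (L.e (L.hol ζ o.x) u)) =ᶠ[𝓝 u]
        Z (0, ⟨L.hol ζ o.x, hol_mem_Fs o h⟩) := by
    intro ζ h u hu
    filter_upwards [isOpen_ball.mem_nhds hu] with v hv
    exact gF_e Z h (ball_subset_closedBall hv)
  have hiter : ∀ (w : Fs o) (m : ℕ), ∀ u ∈ ball (0 : E2) (3 / 2),
      (fun u => (n.N.fn)^[m] (gF o Z (L.em w) (o.β ^ m • L.e (ym o m w) u))) =ᶠ[𝓝 u]
        Z (m, w) := by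
    intro w m u hu
    filter_upwards [isOpen_ball.mem_nhds hu] with v hv
    exact gF_iter hl1 hrec w m hv
  refine ⟨{
    F := gF o Z
    base := fun ζ h => ?_
    smooth := fun ζ h => ?_
    cont := fun k => ?_
    deriv := fun ζ h => ?_
    itS := fun m w hw => ?_
    itC := fun K hK hKF k => ?_ }⟩
  · have h1 := gF_e Z h (u := 0) (by simp)
    rw [L.e_zero, L.hol_ep _ _ h, hZ3] at h1
    exact h1
  · refine ((hZs _).mono hb).congr fun u hu => gF_e Z h (cb3 (by norm_num) hu)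
  · have h1 := (hZc k).1
    have h2 : Continuous fun ζ : ({o.pos}ᶜ : Set B) =>
        (⟨L.hol ζ.1 o.x, hol_mem_Fs o ζ.2⟩ : Fs o) := by
      refine Continuous.subtype_mk ?_ _
      have h3 : ContinuousOn (fun ζ : B => L.hol ζ o.x) ({o.pos}ᶜ) :=
        L.hol_cont.comp (f := fun ζ : B => (ζ, o.x)) (by fun_prop) fun ζ hζ => hζ
      exact continuousOn_iff_continuous_domRestrict.1 h3
    rw [continuousOn_iff_continuous_domRestrict]
    have h4 : Continuous fun q : (({o.pos}ᶜ ×ˢ ball 0 1 : Set (B × E2))) =>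
        iteratedFDeriv ℝ k (Z (0, ⟨L.hol q.1.1 o.x, hol_mem_Fs o q.2.1⟩)) q.1.2 := by
      refine continuousOn_univ.1 (h1.comp (f := fun q : (({o.pos}ᶜ ×ˢ ball 0 1 : Set (B × E2))) =>
        (((0 : ℕ), (⟨L.hol q.1.1 o.x, hol_mem_Fs o q.2.1⟩ : Fs o)), q.1.2)) ?_ ?_)
      · have h5 : Continuous fun q : (({o.pos}ᶜ ×ˢ ball 0 1 : Set (B × E2))) =>
            (⟨L.hol q.1.1 o.x, hol_mem_Fs o q.2.1⟩ : Fs o) :=
          h2.comp (f := fun q : (({o.pos}ᶜ ×ˢ ball 0 1 : Set (B × E2))) =>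
            (⟨q.1.1, q.2.1⟩ : ({o.pos}ᶜ : Set B)))
            (Continuous.subtype_mk (continuous_fst.comp continuous_subtype_val)
              fun q => q.2.1)
        exact ((continuous_const.prodMk h5).prodMk
          (continuous_snd.comp continuous_subtype_val)).continuousOn
      · intro q _
        exact ⟨mem_univ _, hb q.2.2⟩
    refine h4.congr fun q => ?_
    have h6 := (hev q.2.1 q.1.2 (ball_subset_ball (by norm_num) q.2.2)).iteratedFDeriv ℝ k
    exact h6.eq_of_nhds.symm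
  · rw [(hev h 0 (mem_ball_self (by norm_num))).fderiv_eq]
    exact det_ne_of_injective (hZ4 _)
  · exact (hZs (m, ⟨w, hw⟩)).congr fun u hu => gF_iter hl1 hrec ⟨w, hw⟩ m hu
  · have hK' : IsCompact (Subtype.val ⁻¹' K : Set (Fs o)) :=
      (isClosed_Fs o).isClosedEmbedding_subtypeVal.isCompact_preimage hK
    obtain ⟨C, hC⟩ := (hZc k).2 _ hK'
    refine ⟨max C 0, le_max_right _ _, fun m w hw u hu => ?_⟩
    have h1 := hC m ⟨w, hKF hw⟩ hw u hu
    have h2 := ((hiter ⟨w, hKF hw⟩ m u hu).iteratedFDeriv ℝ k).eq_of_nhds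
    rw [h2]
    refine h1.trans ?_
    have h3 : σ' ^ m = Real.exp (-(α * L.χ / 2) * o.l * m) := by
      rw [hσ', ← Real.exp_nat_mul]
      congr 1
      ring
    rw [h3]
    exact mul_le_mul_of_nonneg_right (le_max_left _ _) (Real.exp_nonneg _)

end Vale.Agent.P207.N3.H310
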