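import Vale.Agent.P207.N3.H310.Comp

/-!
# P207, line N3, head of Part A: invariant form or invariant linear form

`form_or_line`: if all closed orbits have `r = 1`, then the matrices `B_k` of a closed orbit
preserve a definite form or a linear form.
-/

open Set Filter Topology Metric MeasureTheory
open scoped ContDiff

set_option linter.unusedSectionVars false

noncomputable section

namespace Vale.Agent.P207.N3.H310

open Vale.Agent.P207.N3.H147
open H790 (NF)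

variable {Γ X B : Type} [Group Γ] [MetricSpace X] [ProperSpace X] [MulAction Γ X]
  [IsIsometricSMul Γ X] [TopologicalSpace B] [CompactSpace B] [T2Space B] [MulAction Γ B]
  [ContinuousConstSMul Γ B] {L : Leaf Γ X B} {o : Orb L} {n : Nor L o} {c : ℝ}

theorem EqM_of_R1 {M : E2 →L[ℝ] E2} (h : R1 M) : EqM (mx M) := by
  obtain ⟨h1, h2⟩ := h
  rw [tr2_eq, det_eq] at h1
  rw [tr2_eq, det_eq] at h2
  rcases lt_or_ge (mx M).det 0 with h3 | h3
  · exact Or.inr (h2 h3)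
  · rw [abs_of_nonneg h3] at h1
    exact Or.inl h1

theorem mx_le (M : E2 →L[ℝ] E2) (i j : Fin 2) : |mx M i j| ≤ ‖M‖ := by
  rw [mx_apply]
  have h1 : ‖(M (EuclideanSpace.single j 1)) i‖ ≤ ‖M (EuclideanSpace.single j 1)‖ :=
    PiLp.norm_apply_le _ i
  have h2 := M.le_opNorm (EuclideanSpace.single j 1)
  rw [PiLp.norm_single, norm_one, mul_one] at h2
  exact h1.trans h2

theorem fderiv_iter {f : E2 → E2} {N : E2 →L[ℝ] E2} (hN : ∀ v, f v = N v) (m : ℕ) (w : E2) :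
    fderiv ℝ (f^[m]) w = N ^ m := by
  have h : f^[m] = ⇑(N ^ m) := by
    funext v
    exact iter_eq hN m v
  rw [h]
  exact (N ^ m).fderiv

/-- the elements `k` with `k β⁺ ≠ β⁻` -/
def KK (o : Orb L) : Type := {k : Γ // k • o.pos ≠ o.neg}

theorem head_in (W : Fwd o n.x n.N.fn c) {N : E2 →L[ℝ] E2} (hN : ∀ v, n.N.fn v = N v)
    (hc : 0 < c) (hC : ∀ k : Γ, k • o.pos ≠ o.neg → Nonempty (Closing o n.x n.N.fn c k (W.Bm k)))
    (hR : ∀ o' : Orb L, R1 (fderiv ℝ o'.ret 0)) :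
    HeadIn (K := KK o) (mx N) (fun k => mx (W.Bm k.1)) where
  det_ne := fun k => by
    rw [← det_eq]
    exact Bm_det W k.1 k.2
  clos := fun k => by
    obtain ⟨Z⟩ := hC k.1 k.2
    obtain ⟨C, hCe⟩ := Z.err
    obtain ⟨M₀, hM₀⟩ := eventually_atTop.1 hCe
    refine ⟨|C|, Real.exp (-(c * o.l)), (Real.exp_pos _).le, ?_,
      fun m => if M₀ ≤ m then mx (Z.E m) else 0, ?_, ?_⟩
    · rw [Real.exp_lt_one_iff]
      have := mul_pos hc o.ax.pos
      linarith
    · intro m i j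
      have hpos : 0 ≤ |C| * Real.exp (-(c * o.l)) ^ m := by positivity
      by_cases h : M₀ ≤ m
      · simp only [if_pos h]
        refine (mx_le _ i j).trans ((hM₀ m h).trans ?_)
        rw [← Real.exp_nat_mul]
        have e : (-c * o.l * m) = m * -(c * o.l) := by ring
        rw [e]
        exact mul_le_mul_of_nonneg_right (le_abs_self C) (Real.exp_pos _).le
      · simp only [if_neg h]
        simpa using hpos
    · filter_upwards [Z.axis, Z.form, eventually_ge_atTop M₀] with m h1 h2 h3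
      have h4 := hR ⟨k.1 * o.β ^ m, Z.z m, Z.lz m, Z.az m, h1⟩
      have h5 : R1 (ret0 L (k.1 * o.β ^ m) (Z.z m)) := h4
      have hPdet : ((Z.P m : E2 →L[ℝ] E2)).det ≠ 0 := by
        refine (det_ne_of_comp (S := ((Z.P m).symm : E2 →L[ℝ] E2)) ?_).2
        exact (Z.P m).coe_symm_comp_coe
      rw [R1_iff_of_conj hPdet h2.symm, fderiv_iter hN] at h5
      have h6 := EqM_of_R1 h5
      rw [mx_comp, mx_add, mx_pow] at h6
      rw [if_pos h3]
      exact h6
  comp := fun k₁ k₂ => by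
    obtain ⟨E₁, E₂, h1, h2, h3⟩ := Bm_comp W hN hc k₁.1 k₂.1 k₁.2 k₂.2
    refine ⟨E₁, E₂, h1, h2, ?_⟩
    filter_upwards [h3] with m hm
    exact ⟨⟨k₁.1 * o.β ^ m * k₂.1, hm.1⟩, hm.2⟩

/-- the normal form of a closed orbit with `r = 1` is linear -/
theorem nf_linear {N : NF} (h : N.OK) (hs : ¬ N.Split) :
    ∃ Λ : E2 →L[ℝ] E2, (∀ v, N.fn v = Λ v) ∧ Λ.det ≠ 0 ∧
      (Rec (mx Λ) ∨ ∃ μ a : ℝ, μ ≠ 0 ∧ a ≠ 0 ∧ mx Λ = !![μ, a; 0, μ]) := by
  have key : ∀ M : Matrix (Fin 2) (Fin 2) ℝ, ∃ Λ : E2 →L[ℝ] E2, mx Λ = M ∧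
      ∀ v : E2, Λ v = !₂[M 0 0 * v 0 + M 0 1 * v 1, M 1 0 * v 0 + M 1 1 * v 1] := by
    intro M
    obtain ⟨Λ, hΛ⟩ : ∃ Λ : E2 →L[ℝ] E2, mx Λ = M := by
      refine ⟨LinearMap.toContinuousLinearMap (Matrix.toLin
        (EuclideanSpace.basisFun (Fin 2) ℝ).toBasis
        (EuclideanSpace.basisFun (Fin 2) ℝ).toBasis M), ?_⟩
      unfold mx
      rw [LinearMap.coe_toContinuousLinearMap, LinearMap.toMatrix_toLin]
    refine ⟨Λ, hΛ, fun v => ?_⟩
    have hv := H969.vec_eq v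
    conv_lhs => rw [hv]
    rw [map_add, map_smul, map_smul, ← hΛ]
    ext i
    fin_cases i
    · simp [mx_apply, mul_comm]
    · simp [mx_apply, mul_comm]
  cases N with
  | tri μ₁ μ₂ a k =>
    obtain ⟨h1, h2, h3⟩ := h
    have h4 : |μ₁| = |μ₂| := le_antisymm (not_lt.1 hs) h2
    have hμ2 : μ₂ ≠ 0 := by
      rintro rfl
      rw [abs_zero] at h1
      linarith
    have hμ1 : μ₁ ≠ 0 := by
      rintro rfl
      rw [abs_zero] at h4
      rw [← h4] at h1
      linarith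
    by_cases ha : a = 0
    · obtain ⟨Λ, hΛ, hv⟩ := key !![μ₁, 0; 0, μ₂]
      refine ⟨Λ, fun v => ?_, ?_, Or.inl ?_⟩
      · rw [hv]
        ext i
        fin_cases i <;> simp [H790.NF.fn, ha]
      · rw [det_eq, hΛ, Matrix.det_fin_two_of]
        simp [hμ1, hμ2]
      · rw [hΛ]
        exact rec_diag hμ1 h4
    · obtain ⟨hk, hμ⟩ := h3 ha
      -- `k = 1`
      have hk1 : k = 1 := by
        by_contra hk1
        have hk2 : 2 ≤ k := by omega
        have h5 : |μ₂| ^ k = |μ₂| := by rw [← abs_pow, ← hμ, h4]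
        have h6 : |μ₂| ^ 1 < |μ₂| ^ k := pow_lt_pow_right₀ h1 (by omega)
        rw [pow_one, h5] at h6
        exact lt_irrefl _ h6
      subst hk1
      rw [pow_one] at hμ
      subst hμ
      obtain ⟨Λ, hΛ, hv⟩ := key !![μ₁, a; 0, μ₁]
      refine ⟨Λ, fun v => ?_, ?_, Or.inr ⟨μ₁, a, hμ1, ha, hΛ⟩⟩
      · rw [hv]
        ext i
        fin_cases i <;> simp [H790.NF.fn]
      · rw [det_eq, hΛ, Matrix.det_fin_two_of]
        simp [hμ1]
  | cx a s =>
    obtain ⟨h1, h2⟩ := h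
    obtain ⟨Λ, hΛ, hv⟩ := key !![a, -s; s, a]
    have h3 : a ^ 2 + s ^ 2 ≠ 0 := by linarith
    refine ⟨Λ, fun v => ?_, ?_, Or.inl ?_⟩
    · rw [hv]
      ext i
      fin_cases i <;> simp [H790.NF.fn] <;> ring
    · rw [det_eq, hΛ, Matrix.det_fin_two_of]
      intro h4
      exact h3 (by linarith)
    · rw [hΛ]
      exact rec_cx h3

/-- **invariant form or invariant linear form** -/
theorem form_or_line (hc : 0 < c)
    (hW : ∃ W : Fwd o n.x n.N.fn c,
      ∀ k : Γ, k • o.pos ≠ o.neg → Nonempty (Closing o n.x n.N.fn c k (W.Bm k)))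
    (hs : ¬ n.N.Split) (hR : ∀ o' : Orb L, R1 (fderiv ℝ o'.ret 0)) :
    ∃ (W : Fwd o n.x n.N.fn c) (Λ : E2 →L[ℝ] E2), (∀ v, n.N.fn v = Λ v) ∧ Λ.det ≠ 0 ∧
      (Form (K := KK o) (mx Λ) (fun k => mx (W.Bm k.1)) ∨
        Line (K := KK o) (fun k => mx (W.Bm k.1))) := by
  obtain ⟨W, hC⟩ := hW
  obtain ⟨Λ, hΛ, hdet, hcase⟩ := nf_linear n.ok hs
  refine ⟨W, Λ, hΛ, hdet, ?_⟩
  have H := head_in W hΛ hc hC hR
  have hdet' : (mx Λ).det ≠ 0 := by rwa [← det_eq]
  rcases hcase with hrec | ⟨μ, a, hμ, ha, hm⟩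
  · refine head_rec H hdet' hrec ⟨1, ?_⟩
    rw [one_smul]
    exact o.neg_ne_pos.symm
  · right
    rw [hm] at H
    exact head_jordan_line H hμ ha

end Vale.Agent.P207.N3.H310
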