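import Vale.Agent.P207.N3.H310.Pm

/-!
# P207, line N3, head of Part A, matrix level

`N` is the return map of a closed orbit with two eigenvalues of equal modulus, `Bk k` are the
matrices of the homoclinic points. From the closing formula (`clos`) and the composition law
(`comp`) we get an invariant form or an invariant linear form.
-/

namespace Vale.Agent.P207.N3.H310

open Matrix Filter Topology Vale.Agent.P207.H575.T3

/-! ### The normalised matrix -/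

/-- `a / √|det a|` -/
noncomputable def hat (a : M2) : M2 := (Real.sqrt |a.det|)⁻¹ • a

theorem sqrt_det_pos {a : M2} (ha : a.det ≠ 0) : 0 < Real.sqrt |a.det| :=
  Real.sqrt_pos.2 (abs_pos.2 ha)

theorem smul_hat {a : M2} (ha : a.det ≠ 0) : Real.sqrt |a.det| • hat a = a := by
  rw [hat, smul_smul, mul_inv_cancel₀ (sqrt_det_pos ha).ne', one_smul]

theorem hat_det {a : M2} (ha : a.det ≠ 0) : |(hat a).det| = 1 := by
  have h := sqrt_det_pos ha
  rw [hat, det_smul2, abs_mul, abs_of_nonneg (sq_nonneg _), inv_pow,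
    Real.sq_sqrt (abs_nonneg _)]
  exact inv_mul_cancel₀ (abs_pos.2 ha).ne'

theorem hat_mul (a b : M2) : hat (a * b) = hat a * hat b := by
  rw [hat, hat, hat, Matrix.det_mul, abs_mul, Real.sqrt_mul (abs_nonneg _), mul_inv]
  simp only [smul_mul_assoc, mul_smul_comm, smul_smul]
  congr 1
  ring

theorem hat_one : hat 1 = 1 := by
  rw [hat, Matrix.det_one, abs_one, Real.sqrt_one, inv_one, one_smul]

theorem hat_pow (a : M2) (m : ℕ) : hat (a ^ m) = hat a ^ m := by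
  induction m with
  | zero => rw [pow_zero, pow_zero, hat_one]
  | succ m ih => rw [pow_succ, pow_succ, hat_mul, ih]

theorem hat_tendsto {ι : Type*} {l : Filter ι} {a : ι → M2} {b : M2} (h : Tendsto a l (𝓝 b))
    (hb : b.det ≠ 0) : Tendsto (fun i => hat (a i)) l (𝓝 (hat b)) := by
  have h1 : Continuous fun a : M2 => a.det := Continuous.matrix_det continuous_id
  have h2 : Tendsto (fun i => Real.sqrt |(a i).det|) l (𝓝 (Real.sqrt |b.det|)) :=
    ((Real.continuous_sqrt.comp (continuous_abs.comp h1)).tendsto b).comp h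
  exact (h2.inv₀ (sqrt_det_pos hb).ne').smul h

theorem EqM_hat {a : M2} (ha : a.det ≠ 0) : EqM (hat a) ↔ EqM a :=
  EqM_smul (inv_ne_zero (sqrt_det_pos ha).ne')

/-! ### The abstract statement -/

/-- The data of Part A at one closed orbit, matrix level. -/
structure HeadIn {K : Type*} (N : M2) (Bk : K → M2) : Prop where
  det_ne : ∀ k, (Bk k).det ≠ 0
  /-- closing formula: the return maps of `k β^m` -/
  clos : ∀ k, ∃ C σ : ℝ, 0 ≤ σ ∧ σ < 1 ∧ ∃ E : ℕ → M2, (∀ m i j, |E m i j| ≤ C * σ ^ m) ∧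
    ∀ᶠ m in atTop, EqM (N ^ m * (Bk k + E m))
  /-- composition: the matrix of `k₁ β^m k₂` -/
  comp : ∀ k₁ k₂, ∃ E₁ E₂ : ℕ → M2, Tendsto E₁ atTop (𝓝 0) ∧ Tendsto E₂ atTop (𝓝 0) ∧
    ∀ᶠ m in atTop, ∃ k, Bk k = (Bk k₂ + E₂ m) * N ^ m * (Bk k₁ + E₁ m)

/-- there is an invariant form -/
def Form {K : Type*} (N : M2) (Bk : K → M2) : Prop :=
  ∃ P : M2, P.det ≠ 0 ∧ (∀ k, (P * Bk k)ᵀ * (P * Bk k) = |(Bk k).det| • (Pᵀ * P)) ∧
    (P * N)ᵀ * (P * N) = |N.det| • (Pᵀ * P)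

/-- there is an invariant linear form -/
def Line {K : Type*} (Bk : K → M2) : Prop :=
  ∃ l0 l1 : ℝ, (l0 ≠ 0 ∨ l1 ≠ 0) ∧ ∀ k, ∃ c : ℝ, c ^ 2 = |(Bk k).det| ∧
    l0 * Bk k 0 0 + l1 * Bk k 1 0 = c * l0 ∧ l0 * Bk k 0 1 + l1 * Bk k 1 1 = c * l1

theorem err_tendsto {C σ : ℝ} (h0 : 0 ≤ σ) (h1 : σ < 1) {E : ℕ → M2}
    (hE : ∀ m i j, |E m i j| ≤ C * σ ^ m) : Tendsto E atTop (𝓝 0) := by
  have h : Tendsto (fun m : ℕ => C * σ ^ m) atTop (𝓝 0) := by
    have := (tendsto_pow_atTop_nhds_zero_of_lt_one h0 h1).const_mul C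
    rwa [mul_zero] at this
  refine tendsto_pi_nhds.2 fun i => tendsto_pi_nhds.2 fun j => ?_
  exact squeeze_zero_norm (fun m => hE m i j) h

theorem err_mul_tendsto {C σ : ℝ} (h0 : 0 ≤ σ) (h1 : σ < 1) {E : ℕ → M2}
    (hE : ∀ m i j, |E m i j| ≤ C * σ ^ m) (i j : Fin 2) :
    Tendsto (fun m : ℕ => (m : ℝ) * E m i j) atTop (𝓝 0) := by
  have h : Tendsto (fun m : ℕ => C * ((m : ℝ) ^ 1 * σ ^ m)) atTop (𝓝 0) := by
    have := (tendsto_pow_const_mul_const_pow_of_lt_one 1 h0 h1).const_mul C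
    rwa [mul_zero] at this
  refine squeeze_zero_norm (fun m => ?_) h
  rw [Real.norm_eq_abs, abs_mul, Nat.abs_cast, pow_one]
  calc (m : ℝ) * |E m i j| ≤ m * (C * σ ^ m) :=
        mul_le_mul_of_nonneg_left (hE m i j) m.cast_nonneg
    _ = C * (m * σ ^ m) := by ring

/-! ### The bounded case -/

/-- recurrence on the circle, with times tending to infinity -/
theorem circle_rec {z : ℂ} (hz : ‖z‖ = 1) : ∃ m : ℕ → ℕ, Tendsto m atTop atTop ∧
    Tendsto (fun k => z ^ (m k)) atTop (𝓝 1) := by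
  have hc : IsCompact (Metric.sphere (0 : ℂ) 1) := isCompact_sphere 0 1
  have hmem : ∀ n : ℕ, z ^ n ∈ Metric.sphere (0 : ℂ) 1 := by
    intro n
    simp [hz]
  obtain ⟨w, hw, φ, hφ, hlim⟩ := hc.tendsto_subseq hmem
  have hw1 : ‖w‖ = 1 := by simpa using hw
  have hzz : z * star z = 1 := by
    have := Complex.mul_conj z
    rw [Complex.normSq_eq_norm_sq, hz] at this
    simpa using this
  have hj : ∀ k, φ k + k ≤ φ (φ k + k) := fun k => hφ.id_le _
  refine ⟨fun k => φ (φ k + k) - φ k, ?_, ?_⟩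
  · refine tendsto_atTop_mono (fun k => ?_) tendsto_id
    have := hj k
    simp only [id_eq]
    omega
  · have h0 : Tendsto (fun k => φ k + k) atTop atTop :=
      tendsto_atTop_mono (fun k => Nat.le_add_left k (φ k)) tendsto_id
    have h1 : Tendsto (fun k => z ^ φ (φ k + k)) atTop (𝓝 w) := hlim.comp h0
    have h2 : Tendsto (fun k => star (z ^ φ k)) atTop (𝓝 (star w)) :=
      (Complex.continuous_conj.tendsto w).comp hlim
    have h3 := h1.mul h2
    have h4 : w * star w = 1 := by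
      have := Complex.mul_conj w
      rw [Complex.normSq_eq_norm_sq, hw1] at this
      simpa using this
    rw [h4] at h3
    refine h3.congr fun k => ?_
    have e1 : φ (φ k + k) = (φ (φ k + k) - φ k) + φ k := by
      have := hj k
      omega
    have e2 : z ^ φ k * star (z ^ φ k) = 1 := by
      rw [star_pow, ← mul_pow, hzz, one_pow]
    calc z ^ φ (φ k + k) * star (z ^ φ k)
        = z ^ ((φ (φ k + k) - φ k) + φ k) * star (z ^ φ k) := by rw [← e1]
      _ = z ^ (φ (φ k + k) - φ k) * (z ^ φ k * star (z ^ φ k)) := by rw [pow_add]; ring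
      _ = z ^ (φ (φ k + k) - φ k) := by rw [e2, mul_one]

/-- the powers of the normalised `N` return to the identity -/
def Rec (N : M2) : Prop :=
  ∃ m : ℕ → ℕ, Tendsto m atTop atTop ∧ Tendsto (fun i => hat N ^ m i) atTop (𝓝 1)

theorem rec_diag {μ₁ μ₂ : ℝ} (h1 : μ₁ ≠ 0) (h : |μ₁| = |μ₂|) : Rec !![μ₁, 0; 0, μ₂] := by
  have h2 : μ₂ ≠ 0 := by
    rw [← abs_pos, ← h]
    exact abs_pos.2 h1
  have hsq : μ₁ ^ 2 = μ₂ ^ 2 := by rw [← sq_abs, h, sq_abs]
  have hd : (!![μ₁, 0; 0, μ₂] : M2).det = μ₁ * μ₂ := by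
    rw [Matrix.det_fin_two_of]
    ring
  have hN2 : hat !![μ₁, 0; 0, μ₂] ^ 2 = 1 := by
    rw [hat, smul_pow, hd, inv_pow, Real.sq_sqrt (abs_nonneg _), abs_mul, ← h,
      abs_mul_abs_self, sq]
    ext i j
    rw [Matrix.smul_apply, mul2]
    fin_cases i <;> fin_cases j <;> simp
    · field_simp
    · rw [← sq, ← sq, ← hsq]
      field_simp
  refine ⟨fun i => 2 * i, ?_, ?_⟩
  · exact tendsto_atTop_mono (fun i => by simp only [id_eq]; omega) tendsto_id
  · refine tendsto_const_nhds.congr fun i => ?_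
    rw [pow_mul, hN2, one_pow]

theorem rec_cx {c s : ℝ} (h : c ^ 2 + s ^ 2 ≠ 0) : Rec !![c, -s; s, c] := by
  have hr0 : 0 < c ^ 2 + s ^ 2 := lt_of_le_of_ne (by positivity) (Ne.symm h)
  have hd : (!![c, -s; s, c] : M2).det = c ^ 2 + s ^ 2 := by
    rw [Matrix.det_fin_two_of]
    ring
  obtain ⟨r, hr⟩ : ∃ r, r = Real.sqrt (c ^ 2 + s ^ 2) := ⟨_, rfl⟩
  have hrp : 0 < r := by rw [hr]; exact Real.sqrt_pos.2 hr0
  have hrr : r ^ 2 = c ^ 2 + s ^ 2 := by rw [hr]; exact Real.sq_sqrt hr0.le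
  let ρ : ℂ → M2 := fun z => !![z.re, -z.im; z.im, z.re]
  have hρ : ∀ z w, ρ (z * w) = ρ z * ρ w := by
    intro z w
    ext i j
    rw [mul2]
    fin_cases i <;> fin_cases j <;> simp [ρ] <;> ring
  have hρp : ∀ z : ℂ, ∀ m : ℕ, ρ (z ^ m) = ρ z ^ m := by
    intro z m
    induction m with
    | zero =>
      rw [pow_zero, pow_zero]
      ext i j
      fin_cases i <;> fin_cases j <;> simp [ρ]
    | succ m ih => rw [pow_succ, pow_succ, hρ, ih]
  have hρc : Continuous ρ := by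
    refine continuous_matrix fun i j => ?_
    fin_cases i <;> fin_cases j <;> simp [ρ] <;> fun_prop
  have hhat : hat !![c, -s; s, c] = ρ ⟨c / r, s / r⟩ := by
    rw [hat, hd, abs_of_pos hr0, ← hr]
    ext i j
    rw [Matrix.smul_apply]
    fin_cases i <;> fin_cases j <;> simp [ρ] <;> field_simp
  have hz : ‖(⟨c / r, s / r⟩ : ℂ)‖ = 1 := by
    have h1 : ‖(⟨c / r, s / r⟩ : ℂ)‖ ^ 2 = 1 := by
      rw [← Complex.normSq_eq_norm_sq, Complex.normSq_mk]
      field_simp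
      linarith
    exact (pow_eq_one_iff_of_nonneg (norm_nonneg _) two_ne_zero).1 h1
  obtain ⟨m, hm, hlim⟩ := circle_rec hz
  refine ⟨m, hm, ?_⟩
  have h1 : ρ 1 = 1 := by
    ext i j
    fin_cases i <;> fin_cases j <;> simp [ρ]
  have h2 := (hρc.tendsto 1).comp hlim
  rw [h1] at h2
  refine h2.congr fun i => ?_
  rw [Function.comp_apply, hρp, hhat]

theorem form_hat {P b : M2} (hb : b.det ≠ 0) (h : (P * hat b)ᵀ * (P * hat b) = Pᵀ * P) :
    (P * b)ᵀ * (P * b) = |b.det| • (Pᵀ * P) := by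
  have h2 := smul_hat hb
  calc (P * b)ᵀ * (P * b)
      = (P * (Real.sqrt |b.det| • hat b))ᵀ * (P * (Real.sqrt |b.det| • hat b)) := by rw [h2]
    _ = (Real.sqrt |b.det| * Real.sqrt |b.det|) • ((P * hat b)ᵀ * (P * hat b)) := by
        rw [mul_smul_comm, Matrix.transpose_smul, smul_mul_smul_comm]
    _ = |b.det| • (Pᵀ * P) := by rw [h, Real.mul_self_sqrt (abs_nonneg _)]

/-- if `b₁`, `b₂`, `b₂ ν b₁` preserve a form, so does `ν` -/
theorem form_mid {P b₁ b₂ ν : M2} (hb : b₁.det ≠ 0) (h1 : (P * b₁)ᵀ * (P * b₁) = Pᵀ * P)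
    (h2 : (P * b₂)ᵀ * (P * b₂) = Pᵀ * P)
    (h3 : (P * (b₂ * ν * b₁))ᵀ * (P * (b₂ * ν * b₁)) = Pᵀ * P) :
    (P * ν)ᵀ * (P * ν) = Pᵀ * P := by
  have hu : IsUnit b₁.det := isUnit_iff_ne_zero.2 hb
  have hut : IsUnit (b₁ᵀ).det := by rw [Matrix.det_transpose]; exact hu
  obtain ⟨Q, hQ⟩ : ∃ Q, Q = Pᵀ * P := ⟨_, rfl⟩
  have e : ∀ s : M2, (P * s)ᵀ * (P * s) = sᵀ * Q * s := by
    intro s
    rw [hQ, Matrix.transpose_mul]
    simp only [mul_assoc]
  rw [e, ← hQ] at h1 h2 h3 ⊢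
  have h4 : b₁ᵀ * (νᵀ * Q * ν) * b₁ = b₁ᵀ * Q * b₁ := by
    calc b₁ᵀ * (νᵀ * Q * ν) * b₁ = b₁ᵀ * (νᵀ * (b₂ᵀ * Q * b₂) * ν) * b₁ := by rw [h2]
      _ = (b₂ * ν * b₁)ᵀ * Q * (b₂ * ν * b₁) := by
          rw [Matrix.transpose_mul, Matrix.transpose_mul]
          simp only [mul_assoc]
      _ = b₁ᵀ * Q * b₁ := by rw [h3, h1]
  have h5 : ∀ A : M2, (b₁ᵀ)⁻¹ * (b₁ᵀ * A * b₁) * b₁⁻¹ = A := by
    intro A
    calc (b₁ᵀ)⁻¹ * (b₁ᵀ * A * b₁) * b₁⁻¹ = ((b₁ᵀ)⁻¹ * b₁ᵀ) * A * (b₁ * b₁⁻¹) := by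
          simp only [mul_assoc]
      _ = A := by rw [Matrix.nonsing_inv_mul _ hut, Matrix.mul_nonsing_inv _ hu, one_mul, mul_one]
  rw [← h5 (νᵀ * Q * ν), h4, h5]

/-- BOUNDED CASE: invariant form or invariant linear form -/
theorem head_rec {K : Type*} {N : M2} {Bk : K → M2} (H : HeadIn N Bk) (hN : N.det ≠ 0)
    (hrec : Rec N) (k₀ : K) : Form N Bk ∨ Line Bk := by
  obtain ⟨m, hm, hm1⟩ := hrec
  obtain ⟨S, hS⟩ : ∃ S : Set M2, S = closure (Set.range fun k => hat (Bk k)) := ⟨_, rfl⟩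
  have hmem : ∀ k, hat (Bk k) ∈ S := fun k => hS ▸ subset_closure (Set.mem_range_self k)
  have hcl : IsClosed S := hS ▸ isClosed_closure
  have hdetc : Continuous fun a : M2 => a.det := Continuous.matrix_det continuous_id
  -- closed under products
  have hprodν : ∀ (ν : M2) (r : ℕ → ℕ), Tendsto r atTop atTop →
      Tendsto (fun i => hat N ^ r i) atTop (𝓝 ν) → ∀ k₁ k₂, hat (Bk k₂) * ν * hat (Bk k₁) ∈ S := by
    intro ν r hr hr1 k₁ k₂
    obtain ⟨E₁, E₂, h1, h2, hk⟩ := H.comp k₁ k₂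
    have hh1 : Tendsto (fun i => hat (Bk k₁ + E₁ (r i))) atTop (𝓝 (hat (Bk k₁))) := by
      refine hat_tendsto ?_ (H.det_ne k₁)
      have := (h1.comp hr).const_add (Bk k₁)
      rwa [add_zero] at this
    have hh2 : Tendsto (fun i => hat (Bk k₂ + E₂ (r i))) atTop (𝓝 (hat (Bk k₂))) := by
      refine hat_tendsto ?_ (H.det_ne k₂)
      have := (h2.comp hr).const_add (Bk k₂)
      rwa [add_zero] at this
    have hh3 := (hh2.mul hr1).mul hh1
    refine hcl.mem_of_tendsto hh3 ?_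
    filter_upwards [hr.eventually hk] with i hi
    obtain ⟨k, hk⟩ := hi
    have : hat (Bk k₂ + E₂ (r i)) * hat N ^ r i * hat (Bk k₁ + E₁ (r i)) = hat (Bk k) := by
      rw [hk, hat_mul, hat_mul, hat_pow]
    rw [this]
    exact hmem k
  have hprod : ∀ k₁ k₂, hat (Bk k₂) * hat (Bk k₁) ∈ S := by
    intro k₁ k₂
    have := hprodν 1 m hm hm1 k₁ k₂
    rwa [mul_one] at this
  have hprodN : ∀ k₁ k₂, hat (Bk k₂) * hat N * hat (Bk k₁) ∈ S := by
    refine hprodν (hat N) (fun i => m i + 1)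
      (tendsto_atTop_mono (fun i => Nat.le_succ (m i)) hm) ?_
    have := hm1.mul_const (hat N)
    rw [one_mul] at this
    refine this.congr fun i => ?_
    rw [pow_succ]
  have hmul : ∀ a ∈ S, ∀ b ∈ S, a * b ∈ S := by
    intro a ha b hb
    rw [← hcl.closure_eq]
    rw [hS] at ha hb
    refine map_mem_closure₂ continuous_mul ha hb ?_
    rintro _ ⟨k₂, rfl⟩ _ ⟨k₁, rfl⟩
    exact hprod k₁ k₂
  have hdet : ∀ a ∈ S, |a.det| = 1 := by
    have hc : IsClosed {a : M2 | |a.det| = 1} :=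
      isClosed_eq (continuous_abs.comp hdetc) continuous_const
    intro a ha
    rw [hS] at ha
    refine closure_minimal ?_ hc ha
    rintro _ ⟨k, rfl⟩
    exact hat_det (H.det_ne k)
  have heq : ∀ a ∈ S, EqM a := by
    intro a ha
    rw [hS] at ha
    refine closure_minimal ?_ isClosed_EqM ha
    rintro _ ⟨k, rfl⟩
    obtain ⟨C, σ, hσ0, hσ1, E, hE, hev⟩ := H.clos k
    have hE0 := err_tendsto hσ0 hσ1 hE
    have hh1 : Tendsto (fun i => Bk k + E (m i)) atTop (𝓝 (Bk k)) := by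
      have := (hE0.comp hm).const_add (Bk k)
      rwa [add_zero] at this
    have hh2 := hm1.mul (hat_tendsto hh1 (H.det_ne k))
    rw [one_mul] at hh2
    refine isClosed_EqM.mem_of_tendsto hh2 ?_
    have hdn : ∀ᶠ i in atTop, (Bk k + E (m i)).det ≠ 0 :=
      ((hdetc.tendsto _).comp hh1).eventually_ne (H.det_ne k)
    filter_upwards [hm.eventually hev, hdn] with i hi hi2
    have : hat N ^ m i * hat (Bk k + E (m i)) = hat (N ^ m i * (Bk k + E (m i))) := by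
      rw [hat_mul, hat_pow]
    show EqM (hat N ^ m i * hat (Bk k + E (m i)))
    rw [this, EqM_hat]
    · exact hi
    · rw [Matrix.det_mul, Matrix.det_pow]
      exact mul_ne_zero (pow_ne_zero _ hN) hi2
  rcases alt_pm hmul hdet heq with ⟨P, hP, h⟩ | ⟨v0, v1, hv, h⟩
  · left
    refine ⟨P, hP, fun k => form_hat (H.det_ne k) (h _ (hmem k)), form_hat hN ?_⟩
    refine form_mid (b₁ := hat (Bk k₀)) (b₂ := hat (Bk k₀)) ?_ (h _ (hmem k₀)) (h _ (hmem k₀))
      (h _ (hprodN k₀ k₀))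
    intro h0
    have := hat_det (H.det_ne k₀)
    rw [h0, abs_zero] at this
    exact zero_ne_one this
  · right
    refine ⟨-v1, v0, ?_, fun k => ?_⟩
    · rcases hv with hv | hv
      · exact Or.inr hv
      · exact Or.inl (neg_ne_zero.2 hv)
    · obtain ⟨c, hc, h0, h1⟩ := h _ (hmem k)
      have hc0 : c ≠ 0 := by
        intro hc0
        rw [hc0, abs_zero] at hc
        norm_num at hc
      have hd := hat_det (H.det_ne k)
      obtain ⟨s, hs⟩ : ∃ s, s = hat (Bk k) := ⟨_, rfl⟩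
      obtain ⟨r, hr⟩ : ∃ r, r = Real.sqrt |(Bk k).det| := ⟨_, rfl⟩
      have hB : Bk k = r • s := by rw [hr, hs, smul_hat (H.det_ne k)]
      rw [← hs] at hd h0 h1
      have hrr : r ^ 2 = |(Bk k).det| := by rw [hr, Real.sq_sqrt (abs_nonneg _)]
      refine ⟨r * (s.det / c), ?_, ?_, ?_⟩
      · rw [mul_pow, div_pow, ← sq_abs s.det, hd, ← sq_abs c, hc, hrr]
        norm_num
      · rw [hB, Matrix.smul_apply, Matrix.smul_apply, smul_eq_mul, smul_eq_mul,
          Matrix.det_fin_two]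
        have : c * ((-v1) * s 0 0 + v0 * s 1 0) = (s 0 0 * s 1 1 - s 0 1 * s 1 0) * (-v1) := by
          linear_combination (-s 1 0) * h0 + s 0 0 * h1
        field_simp
        linear_combination r * this
      · rw [hB, Matrix.smul_apply, Matrix.smul_apply, smul_eq_mul, smul_eq_mul,
          Matrix.det_fin_two]
        have : c * ((-v1) * s 0 1 + v0 * s 1 1) = (s 0 0 * s 1 1 - s 0 1 * s 1 0) * v0 := by
          linear_combination (-s 1 1) * h0 + s 0 1 * h1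
        field_simp
        linear_combination r * this

/-! ### The Jordan case -/

theorem jordan_pow {μ a : ℝ} (hμ : μ ≠ 0) (m : ℕ) :
    (!![μ, a; 0, μ] : M2) ^ m = μ ^ m • !![1, m * (a / μ); 0, 1] := by
  induction m with
  | zero =>
    rw [pow_zero, pow_zero, one_smul]
    ext i j
    fin_cases i <;> fin_cases j <;> simp
  | succ m ih =>
    rw [pow_succ, ih]
    ext i j
    rw [mul2, Matrix.smul_apply, Matrix.smul_apply, Matrix.smul_apply]
    fin_cases i <;> fin_cases j <;> simp <;> field_simp <;> ring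

/-- JORDAN CASE: `B₂₁ = 0`, `|B₁₁| = |B₂₂|` -/
theorem head_jordan {K : Type*} {μ a : ℝ} {Bk : K → M2} (H : HeadIn !![μ, a; 0, μ] Bk)
    (hμ : μ ≠ 0) (ha : a ≠ 0) (k : K) :
    Bk k 1 0 = 0 ∧ (Bk k 0 0) ^ 2 = (Bk k 1 1) ^ 2 := by
  obtain ⟨τ, hτ⟩ : ∃ τ, τ = a / μ := ⟨_, rfl⟩
  have hτ0 : τ ≠ 0 := by rw [hτ]; exact div_ne_zero ha hμ
  obtain ⟨C, σ, hσ0, hσ1, E, hE, hev⟩ := H.clos k
  have hE0 := err_tendsto hσ0 hσ1 hE
  obtain ⟨b, hb⟩ : ∃ b, b = Bk k := ⟨_, rfl⟩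
  rw [← hb] at hev
  rw [← hb]
  -- the entries
  have hent : ∀ i j, Tendsto (fun m => b i j + E m i j) atTop (𝓝 (b i j)) := by
    intro i j
    have h1 : Tendsto (fun m => E m i j) atTop (𝓝 0) := by
      have := tendsto_pi_nhds.1 (tendsto_pi_nhds.1 hE0 i) j
      simpa using this
    simpa using h1.const_add (b i j)
  obtain ⟨T, hT⟩ : ∃ T : ℕ → ℝ, T = fun m => (b 0 0 + E m 0 0) + m * τ * (b 1 0 + E m 1 0)
    + (b 1 1 + E m 1 1) := ⟨_, rfl⟩
  obtain ⟨D, hD⟩ : ∃ D : ℕ → ℝ, D = fun m => (b 0 0 + E m 0 0) * (b 1 1 + E m 1 1)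
    - (b 0 1 + E m 0 1) * (b 1 0 + E m 1 0) := ⟨_, rfl⟩
  have hDlim : Tendsto D atTop (𝓝 (b 0 0 * b 1 1 - b 0 1 * b 1 0)) := by
    rw [hD]
    exact ((hent 0 0).mul (hent 1 1)).sub ((hent 0 1).mul (hent 1 0))
  have hTD : ∀ᶠ m in atTop, T m ^ 2 ≤ 4 * D m ∨ T m = 0 := by
    filter_upwards [hev] with m hm
    have h1 : (!![μ, a; 0, μ] : M2) ^ m * (b + E m)
        = μ ^ m • (!![1, m * τ; 0, 1] * (b + E m)) := by
      rw [jordan_pow hμ, smul_mul_assoc, hτ]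
    rw [h1, EqM_smul (pow_ne_zero m hμ)] at hm
    have h2 : (!![1, m * τ; 0, 1] * (b + E m) : M2).trace = T m := by
      rw [tr2, mul2, mul2, hT]
      simp
    have h3 : (!![1, m * τ; 0, 1] * (b + E m) : M2).det = D m := by
      rw [Matrix.det_mul, Matrix.det_fin_two_of, Matrix.det_fin_two, hD]
      simp
    unfold EqM at hm
    rw [h2, h3] at hm
    exact hm
  -- the trace is bounded, hence `b₂₁ = 0`
  have hb10 : b 1 0 = 0 := by
    by_contra h10
    have hDb : ∀ᶠ m in atTop, D m ≤ (b 0 0 * b 1 1 - b 0 1 * b 1 0) + 1 :=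
      (hDlim.eventually (gt_mem_nhds (lt_add_one _))).mono fun m hm => hm.le
    have hTb : ∀ᶠ m in atTop, T m ^ 2 ≤ 4 * (|b 0 0 * b 1 1 - b 0 1 * b 1 0| + 1) := by
      filter_upwards [hTD, hDb] with m h1 h2
      have h3 := le_abs_self (b 0 0 * b 1 1 - b 0 1 * b 1 0)
      rcases h1 with h1 | h1
      · linarith
      · rw [h1]
        have := abs_nonneg (b 0 0 * b 1 1 - b 0 1 * b 1 0)
        nlinarith
    have hlim : Tendsto (fun m => |T m|) atTop atTop := by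
      have h1 : Tendsto (fun m : ℕ => |τ * (b 1 0 + E m 1 0)|) atTop (𝓝 |τ * b 1 0|) :=
        (((hent 1 0).const_mul τ)).abs
      have h2 : 0 < |τ * b 1 0| := abs_pos.2 (mul_ne_zero hτ0 h10)
      have h3 : Tendsto (fun m : ℕ => (m : ℝ) * |τ * (b 1 0 + E m 1 0)|) atTop atTop :=
        tendsto_natCast_atTop_atTop.atTop_mul_pos h2 h1
      have h4 : Tendsto (fun m : ℕ => |(b 0 0 + E m 0 0) + (b 1 1 + E m 1 1)|) atTop
          (𝓝 |b 0 0 + b 1 1|) := ((hent 0 0).add (hent 1 1)).abs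
      have h5 : Tendsto (fun m : ℕ => (m : ℝ) * |τ * (b 1 0 + E m 1 0)|
          + -|(b 0 0 + E m 0 0) + (b 1 1 + E m 1 1)|) atTop atTop := h3.atTop_add h4.neg
      refine tendsto_atTop_mono (fun m => ?_) h5
      have h6 : (m : ℝ) * |τ * (b 1 0 + E m 1 0)| = |m * τ * (b 1 0 + E m 1 0)| := by
        rw [mul_assoc, abs_mul (m : ℝ), Nat.abs_cast]
      have h7 : (m : ℝ) * τ * (b 1 0 + E m 1 0)
          = T m - ((b 0 0 + E m 0 0) + (b 1 1 + E m 1 1)) := by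
        rw [hT]
        ring
      rw [h6, h7]
      have := abs_sub (T m) ((b 0 0 + E m 0 0) + (b 1 1 + E m 1 1))
      linarith
    obtain ⟨m, h1, h2⟩ := (hTb.and (hlim.eventually_gt_atTop
      (4 * (|b 0 0 * b 1 1 - b 0 1 * b 1 0| + 1)))).exists
    have h3 := abs_nonneg (b 0 0 * b 1 1 - b 0 1 * b 1 0)
    rw [← sq_abs] at h1
    nlinarith
  refine ⟨hb10, ?_⟩
  have hTlim : Tendsto T atTop (𝓝 (b 0 0 + b 1 1)) := by
    have h1 : Tendsto (fun m : ℕ => τ * ((m : ℝ) * E m 1 0)) atTop (𝓝 (τ * 0)) :=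
      (err_mul_tendsto hσ0 hσ1 hE 1 0).const_mul τ
    have h2 := ((hent 0 0).add h1).add (hent 1 1)
    rw [mul_zero, add_zero] at h2
    refine h2.congr fun m => ?_
    rw [hT, hb10]
    ring
  have hcl : IsClosed {p : ℝ × ℝ | p.1 ^ 2 ≤ 4 * p.2 ∨ p.1 = 0} :=
    (isClosed_le (continuous_fst.pow 2) (continuous_const.mul continuous_snd)).union
      (isClosed_eq continuous_fst continuous_const)
  have h := hcl.mem_of_tendsto (hTlim.prodMk_nhds hDlim) hTD
  rw [hb10, mul_zero, sub_zero] at h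
  rcases h with h | h
  · have h' : (b 0 0 + b 1 1) ^ 2 ≤ 4 * (b 0 0 * b 1 1) := h
    have h2 : (b 0 0 - b 1 1) ^ 2 ≤ 0 := by nlinarith
    have h3 : b 0 0 - b 1 1 = 0 := by
      have := sq_nonneg (b 0 0 - b 1 1)
      exact pow_eq_zero_iff (two_ne_zero) |>.1 (le_antisymm h2 this)
    rw [sub_eq_zero.1 h3]
  · have h' : b 0 0 + b 1 1 = 0 := h
    rw [show b 0 0 = -b 1 1 by linarith]
    ring

theorem head_jordan_line {K : Type*} {μ a : ℝ} {Bk : K → M2} (H : HeadIn !![μ, a; 0, μ] Bk)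
    (hμ : μ ≠ 0) (ha : a ≠ 0) : Line Bk := by
  refine ⟨0, 1, Or.inr one_ne_zero, fun k => ⟨Bk k 1 1, ?_, ?_, ?_⟩⟩
  · obtain ⟨h1, h2⟩ := head_jordan H hμ ha k
    rw [Matrix.det_fin_two, h1, mul_zero, sub_zero, abs_mul]
    have h3 : |Bk k 0 0| = |Bk k 1 1| := (sq_eq_sq_iff_abs_eq_abs _ _).1 h2
    rw [h3, abs_mul_abs_self, sq]
  · rw [(head_jordan H hμ ha k).1]
    ring
  · ring

end Vale.Agent.P207.N3.H310
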