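import Vale.Agent.P207.N3.H790.LU
import Vale.Agent.P207.N3.H147.Ret
import Vale.Agent.P207.N3.H310.Fw

/-!
# P207, line N3 (P4, E3): the derivative of `N^n ∘ F ζ ∘ β^n` at `β⁺`
-/

open Set Filter Topology Metric MeasureTheory
open scoped ContDiff

set_option linter.unusedSectionVars false

noncomputable section

namespace Vale.Agent.P207.N3.H310

open Vale.Agent.P207.N3.H147
open H790 (NF)

/-! ### Algebra -/

/-- if `P (X₀ + E₂) = (X₀ + E₁) (1 + Θ)` then `P` is close to `1` -/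
theorem near_one {A : Type*} [NormedRing A] {P X₀ Y₀ E₁ E₂ Θ : A}
    (h : P * (X₀ + E₂) = (X₀ + E₁) * (1 + Θ)) (hY : X₀ * Y₀ = 1) (hE : ‖E₂‖ * ‖Y₀‖ ≤ 1 / 2) :
    ‖P - 1‖ ≤ 2 * ((‖E₁‖ + ‖E₂‖ + (‖X₀‖ + ‖E₁‖) * ‖Θ‖) * ‖Y₀‖) := by
  have h1 : (P - 1) * (X₀ + E₂) = E₁ - E₂ + (X₀ + E₁) * Θ := by
    rw [sub_mul, one_mul, h, mul_add, mul_one]
    abel
  have h2 : P - 1 = (E₁ - E₂ + (X₀ + E₁) * Θ) * Y₀ - (P - 1) * (E₂ * Y₀) := by
    have h3 : (P - 1) * (X₀ + E₂) * Y₀ = (P - 1) + (P - 1) * (E₂ * Y₀) := by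
      rw [mul_assoc, add_mul, hY, mul_add, mul_one]
    rw [← h1, h3, add_sub_cancel_right]
  have h4 : ‖(E₁ - E₂ + (X₀ + E₁) * Θ) * Y₀‖
      ≤ (‖E₁‖ + ‖E₂‖ + (‖X₀‖ + ‖E₁‖) * ‖Θ‖) * ‖Y₀‖ := by
    refine (norm_mul_le _ _).trans (mul_le_mul_of_nonneg_right ?_ (norm_nonneg _))
    refine (norm_add_le _ _).trans (add_le_add (norm_sub_le _ _) ?_)
    exact (norm_mul_le _ _).trans (mul_le_mul_of_nonneg_right (norm_add_le _ _) (norm_nonneg _))
  have h5 : ‖(P - 1) * (E₂ * Y₀)‖ ≤ ‖P - 1‖ * (1 / 2) := by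
    refine (norm_mul_le _ _).trans (mul_le_mul_of_nonneg_left ?_ (norm_nonneg _))
    exact (norm_mul_le _ _).trans hE
  have h6 : ‖P - 1‖ ≤ ‖(E₁ - E₂ + (X₀ + E₁) * Θ) * Y₀‖ + ‖(P - 1) * (E₂ * Y₀)‖ := by
    conv_lhs => rw [h2]
    exact norm_sub_le _ _
  linarith

/-- an invertible map has a two sided inverse -/
theorem exists_inv_of_det {T : E2 →L[ℝ] E2} (h : T.det ≠ 0) :
    ∃ T' : E2 →L[ℝ] E2, T * T' = 1 ∧ T' * T = 1 := by
  refine ⟨(ContinuousLinearMap.toContinuousLinearEquivOfDetNeZero _ h).symm, ?_, ?_⟩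
  · ext1 v
    change T ((ContinuousLinearMap.toContinuousLinearEquivOfDetNeZero _ h).symm v) = v
    have h1 := (ContinuousLinearMap.toContinuousLinearEquivOfDetNeZero T h).apply_symm_apply v
    rwa [← ContinuousLinearEquiv.coe_coe,
      ContinuousLinearMap.coe_toContinuousLinearEquivOfDetNeZero] at h1
  · ext1 v
    change (ContinuousLinearMap.toContinuousLinearEquivOfDetNeZero _ h).symm (T v) = v
    have h1 := (ContinuousLinearMap.toContinuousLinearEquivOfDetNeZero T h).symm_apply_apply v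
    have h2 : (ContinuousLinearMap.toContinuousLinearEquivOfDetNeZero T h) v = T v := by
      rw [← ContinuousLinearEquiv.coe_coe,
        ContinuousLinearMap.coe_toContinuousLinearEquivOfDetNeZero]
    rwa [h2] at h1

/-- an element of the orthogonal group as a map of the plane -/
def oc (a : O2) : E2 →L[ℝ] E2 := (a.toContinuousLinearEquiv : E2 →L[ℝ] E2)

theorem oc_apply (a : O2) (v : E2) : oc a v = a v := rfl

theorem oc_mul_inv (a : O2) : oc a * oc a⁻¹ = 1 := by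
  ext1 v
  change a (a⁻¹ v) = v
  have : (a * a⁻¹) v = v := by rw [mul_inv_cancel]; rfl
  exact this

theorem oc_inv_mul (a : O2) : oc a⁻¹ * oc a = 1 := by
  ext1 v
  change a⁻¹ (a v) = v
  have : (a⁻¹ * a) v = v := by rw [inv_mul_cancel]; rfl
  exact this

theorem norm_oc_le (a : O2) : ‖oc a‖ ≤ 1 := by
  refine ContinuousLinearMap.opNorm_le_bound _ zero_le_one fun v => ?_
  rw [oc_apply, a.norm_map, one_mul]

theorem fderiv_iter_zero {N : NF} (h : N.OK) (m : ℕ) : fderiv ℝ (N.fn^[m]) 0 = N.Lam ^ m := by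
  obtain ⟨C, _, hC⟩ := H790.NF.fderiv_iter h
  obtain ⟨J, hJ, hJ0⟩ := hC m 0 (by simp)
  rw [norm_zero, mul_zero] at hJ0
  have h1 : J = 0 := norm_le_zero_iff.1 hJ0
  rw [hJ, h1, add_zero, mul_one]

/-! ### The chain rule -/

variable {Γ X B : Type} [Group Γ] [MetricSpace X] [ProperSpace X] [MulAction Γ X]
  [IsIsometricSMul Γ X] [TopologicalSpace B] [CompactSpace B] [T2Space B] [MulAction Γ B]
  [ContinuousConstSMul Γ B] {L : Leaf Γ X B}

/-- `β^m • e (hol (β^{-m} ζ) x₀) u = e (hol ζ x₀) (R (m l) (hol ζ x₀) (a^m u))` -/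
theorem pow_smul_e (o : Orb L) {m : ℕ} (hm : L.t1 ≤ m * o.l) {ζ : B} (h : ζ ≠ o.pos) {u : E2}
    (hu : u ∈ closedBall (0 : E2) 3) :
    o.β ^ m • L.e (L.hol ((o.β ^ m)⁻¹ • ζ) o.x) u
      = L.e (L.hol ζ o.x) (R L (m * o.l) (L.hol ζ o.x) ((o.a ^ m : O2) u)) := by
  obtain ⟨h1, h2⟩ := ym_hol o m h
  rw [← h1, ← L.e_smul _ _ _ hu, ym, smul_inv_smul, ← L.rot_φ, L.e_rot _ _ _ hu,
    e_R _ hm (isom_mem' hu)]

variable {o : Orb L} {n : Nor L o} {c : ℝ}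

/-- the derivative of the forward chart at `β⁺` -/
def Am (W : Fwd o n.x n.N.fn c) (ζ : B) : E2 →L[ℝ] E2 :=
  fderiv ℝ (fun u => W.F ζ (L.e (L.hol ζ o.x) u)) 0

theorem fderiv_fwd (W : Fwd o n.x n.N.fn c) {m : ℕ} (hm : L.t1 ≤ m * o.l) {ζ : B}
    (h : ζ ≠ o.pos) :
    fderiv ℝ (fun u => n.N.fn^[m] (W.F ζ (o.β ^ m • L.e (L.hol ((o.β ^ m)⁻¹ • ζ) o.x) u))) 0
      = n.N.Lam ^ m * (Am W ζ * (fderiv ℝ (R L (m * o.l) (L.hol ζ o.x)) 0 * oc (o.a ^ m))) := by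
  set w := L.hol ζ o.x with hw
  have h1 : (fun u => n.N.fn^[m] (W.F ζ (o.β ^ m • L.e (L.hol ((o.β ^ m)⁻¹ • ζ) o.x) u)))
      =ᶠ[𝓝 0] (n.N.fn^[m] ∘ ((fun u => W.F ζ (L.e w u)) ∘ (R L (m * o.l) w ∘ oc (o.a ^ m)))) := by
    filter_upwards [isOpen_ball.mem_nhds (mem_ball_self (x := (0 : E2)) (by norm_num : (0 : ℝ) < 3))]
      with u hu
    simp only [Function.comp_apply]
    rw [pow_smul_e o hm h (ball_subset_closedBall hu)]
    rfl
  have ha0 : oc (o.a ^ m) (0 : E2) = 0 := map_zero _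
  have d1 : HasFDerivAt (oc (o.a ^ m)) (oc (o.a ^ m)) (0 : E2) := (oc (o.a ^ m)).hasFDerivAt
  have d2 : HasFDerivAt (R L (m * o.l) w) (fderiv ℝ (R L (m * o.l) w) 0) (oc (o.a ^ m) (0 : E2)) := by
    rw [ha0]
    exact (((R_smooth w hm).contDiffAt (isOpen_ball.mem_nhds (mem_ball_self (by norm_num)))
      ).differentiableAt (by simp)).hasFDerivAt
  have e2 : (R L (m * o.l) w ∘ oc (o.a ^ m)) (0 : E2) = 0 := by
    rw [Function.comp_apply, ha0, R_zero]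
  have d3 : HasFDerivAt (fun u => W.F ζ (L.e w u)) (Am W ζ)
      ((R L (m * o.l) w ∘ oc (o.a ^ m)) (0 : E2)) := by
    rw [e2]
    exact (F_diff W h (by simp)).hasFDerivAt
  have e3 : ((fun u => W.F ζ (L.e w u)) ∘ (R L (m * o.l) w ∘ oc (o.a ^ m))) (0 : E2) = 0 := by
    rw [Function.comp_apply, e2]
    beta_reduce
    rw [L.e_zero, hol_ep' h]
    exact W.base ζ h
  have d4 : HasFDerivAt (n.N.fn^[m]) (n.N.Lam ^ m)
      (((fun u => W.F ζ (L.e w u)) ∘ (R L (m * o.l) w ∘ oc (o.a ^ m))) (0 : E2)) := by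
    rw [e3, ← fderiv_iter_zero n.ok m]
    exact (((H790.NF.contDiff_fn_iter n.N m).contDiffAt).differentiableAt (by simp)).hasFDerivAt
  rw [h1.fderiv_eq]
  exact (d4.comp (0 : E2) (d3.comp (0 : E2) (d2.comp (0 : E2) d1))).fderiv

end Vale.Agent.P207.N3.H310
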