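import Vale.Agent.P207.N3.H310.HolA
import Vale.Agent.P207.N3.H147.Hold
import Vale.Agent.P207.N3.H992.RInv

/-!
# P207, line N3 (P4, E3): the forward charts at `k⁻¹ ξ_m`, `ξ_m` the repelling point of `k β^m`

`conj_close`: `A (k⁻¹ ξ_m) = S_m A (k⁻¹ β⁻)` with `Λ^j S_m = (1 + D_m) Λ^j`, `j = ⌊ε m⌋`, `D_m`
exponentially small, the rate depends only on `L` and on the rate of the forward coordinates.
-/

open Set Filter Topology Metric MeasureTheory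
open scoped ContDiff

set_option linter.unusedSectionVars false

noncomputable section

namespace Vale.Agent.P207.N3.H310

open Vale.Agent.P207.N3.H147
open H790 (NF)

variable {Γ X B : Type} [Group Γ] [MetricSpace X] [ProperSpace X] [MulAction Γ X]
  [IsIsometricSMul Γ X] [TopologicalSpace B] [CompactSpace B] [T2Space B] [MulAction Γ B]
  [ContinuousConstSMul Γ B] {L : Leaf Γ X B}

/-- inverse bound of the contractions -/
def RInv (L : Leaf Γ X B) (C₀ : ℝ) : Prop := ∀ x, ∀ t ≥ L.t1, ∃ I : E2 →L[ℝ] E2,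
  I * fderiv ℝ (R L t x) 0 = 1 ∧ fderiv ℝ (R L t x) 0 * I = 1 ∧ ‖I‖ ≤ Real.exp (C₀ * t)

/-- Hölder bound of the contractions -/
def RHol (L : Leaf Γ X B) (α C₁ : ℝ) : Prop := ∀ x x' : X, ∀ t, L.t1 ≤ t → ∀ δ, 0 < δ →
    (∀ s ∈ Icc 0 t, dist (L.φ s x) (L.φ s x') ≤ δ) →
    ‖fderiv ℝ (R L t x) 0 - fderiv ℝ (R L t x') 0‖ ≤ C₁ * δ ^ α

variable (L) in
theorem exists_RHol : ∃ α C₁ : ℝ, 0 < α ∧ 0 ≤ C₁ ∧ RHol L α C₁ := by
  obtain ⟨α, hα, h⟩ := R_close L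
  obtain ⟨C₁, hC₁, hC⟩ := h 1
  refine ⟨α, C₁, hα, hC₁, fun x x' t ht δ hδ hd => ?_⟩
  have h1 := hC x x' t ht δ hδ hd 0 (by simp; norm_num)
  rwa [← norm_fderiv_sub] at h1

/-- the leaves of `ξ_m` and of `β⁻`, moved by `k⁻¹`: comparison of the frames -/
theorem dist_hol (o : Orb L) (k : Γ) (hk : k • o.pos ≠ o.neg) (ξ : ℕ → B)
    (hξ : ∀ᶠ m : ℕ in atTop, (k * o.β ^ m) • ξ m = ξ m) (hlim : Tendsto ξ atTop (𝓝 o.neg)) :
    ∃ C : ℝ, 0 < C ∧ ∀ᶠ m : ℕ in atTop, ∀ s ≥ (0 : ℝ),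
      dist (L.φ s (L.hol (k⁻¹ • ξ m) o.x)) (L.φ s (L.hol (k⁻¹ • o.neg) o.x))
        ≤ C * Real.exp (-L.χ * (m * o.l)) := by
  have hζ : k⁻¹ • o.neg ≠ o.pos := fun h => hk (by rw [← h, smul_inv_smul])
  obtain ⟨K, hKn, hKc, hKs⟩ := exists_mem_nhds_isClosed_subset
    (isOpen_compl_singleton.mem_nhds hζ : ({o.pos} : Set B)ᶜ ∈ 𝓝 (k⁻¹ • o.neg))
  have hKp : o.pos ∉ K := fun h => hKs h rfl
  have hKm : ∀ᶠ m in atTop, k⁻¹ • ξ m ∈ K :=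
    (((continuous_const_smul k⁻¹).tendsto o.neg).comp hlim).eventually hKn
  have hep : L.ep (k • o.x) = k • o.pos := L.ep_smul k o.x
  have hne : o.neg ≠ L.ep (k • o.x) := by rw [hep]; exact hk.symm
  obtain ⟨C, hC⟩ := Ax.key o.ax hKc.isCompact hKp (Q := {L.hol o.neg (k • o.x)})
    isCompact_singleton (by rintro y rfl; exact L.hol_em _ _ hne)
  refine ⟨max C 1, lt_of_lt_of_le one_pos (le_max_right _ _), ?_⟩
  filter_upwards [hC, hKm, hξ] with m h1 h2 h3 s hs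
  obtain ⟨_, h4⟩ := h1 _ h2 _ rfl s (by
    have := o.ax.pos
    have : 0 ≤ (m : ℝ) * o.l := by positivity
    linarith)
  have e1 : (o.β ^ m)⁻¹ • k⁻¹ • ξ m = ξ m := by
    rw [smul_smul, ← mul_inv_rev, inv_smul_eq_iff]
    exact h3.symm
  have hne' : k⁻¹ • ξ m ≠ o.pos := fun h => hKp (h ▸ h2)
  have hne2 : ξ m ≠ L.ep (k • o.x) := by
    rw [hep]
    intro h
    exact hne' (by rw [h, inv_smul_smul])
  rw [e1, L.hol_hol _ _ _ hne hne2] at h4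
  -- translate by `k`
  have e2 : k • L.hol (k⁻¹ • ξ m) o.x = L.hol (ξ m) (k • o.x) := by
    have h := L.hol_smul k (k⁻¹ • ξ m) o.x hne'
    rw [smul_inv_smul] at h
    exact h.symm
  have e3 : k • L.hol (k⁻¹ • o.neg) o.x = L.hol o.neg (k • o.x) := by
    have h := L.hol_smul k (k⁻¹ • o.neg) o.x hζ
    rw [smul_inv_smul] at h
    exact h.symm
  rw [← e2, ← e3, L.φ_smul, L.φ_smul, dist_smul, dist_comm] at h4
  refine h4.trans ?_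
  have hχ := L.χ_pos
  refine mul_le_mul (le_max_left _ _) (Real.exp_le_exp.2 (by nlinarith)) (Real.exp_nonneg _)
    (zero_le_one.trans (le_max_right _ _))

variable {o : Orb L} {n : Nor L o} {c : ℝ}

theorem exists_smul_eq (n : Nor L o) : ∃ Y₀ : E2 →L[ℝ] E2,
    fderiv ℝ (fun u => n.x (L.e o.x u)) 0 * Y₀ = 1 ∧
    Y₀ * fderiv ℝ (fun u => n.x (L.e o.x u)) 0 = 1 :=
  exists_inv_of_det (n.deriv o.x rfl 0 (mem_ball_self (by norm_num)))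

/-- the convergence of the derivatives at `β⁺` -/
theorem conv_zero (W : Fwd o n.x n.N.fn c) {K : Set B} (hK : IsCompact K) (hKp : o.pos ∉ K) :
    ∃ C, 0 ≤ C ∧ ∀ᶠ m : ℕ in atTop, L.t1 ≤ m * o.l ∧ ∀ ζ ∈ K,
      ‖n.N.Lam ^ m * (Am W ζ * (fderiv ℝ (R L (m * o.l) (L.hol ζ o.x)) 0 * oc (o.a ^ m)))
        - fderiv ℝ (fun u => n.x (L.e o.x u)) 0‖ ≤ C * Real.exp (-c * o.l * m) := by
  obtain ⟨C, hC⟩ := W.conv K hK hKp {o.x} isCompact_singleton (by rintro y rfl; rfl) 1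
  have hl := o.ax.pos
  have ht : ∀ᶠ m : ℕ in atTop, L.t1 ≤ m * o.l := by
    obtain ⟨N, hN⟩ := exists_nat_ge (L.t1 / o.l)
    filter_upwards [eventually_ge_atTop N] with m hm
    rw [div_le_iff₀ hl] at hN
    have : (N : ℝ) ≤ m := by exact_mod_cast hm
    nlinarith
  refine ⟨max C 0, le_max_right _ _, ?_⟩
  filter_upwards [hC, ht] with m hm htm
  refine ⟨htm, fun ζ hζ => ?_⟩
  have hne : ζ ≠ o.pos := fun h => hKp (h ▸ hζ)
  obtain ⟨_, _, _, h4⟩ := hm ζ hζ o.x rfl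
  have h5 := h4 0 (by simp)
  rw [← norm_fderiv_sub, fderiv_fwd W htm hne] at h5
  exact h5.trans (mul_le_mul_of_nonneg_right (le_max_left _ _) (Real.exp_nonneg _))

/-- one pair of points -/
theorem conj_pair (W : Fwd o n.x n.N.fn c) {m : ℕ} {ζ ζ' : B}
    (h' : ζ' ≠ o.pos) {Y₀ : E2 →L[ℝ] E2}
    (hY : fderiv ℝ (fun u => n.x (L.e o.x u)) 0 * Y₀ = 1) {I : E2 →L[ℝ] E2}
    (hI : fderiv ℝ (R L (m * o.l) (L.hol ζ o.x)) 0 * I = 1) {η θ : ℝ}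
    (h1 : ‖n.N.Lam ^ m * (Am W ζ * (fderiv ℝ (R L (m * o.l) (L.hol ζ o.x)) 0 * oc (o.a ^ m)))
        - fderiv ℝ (fun u => n.x (L.e o.x u)) 0‖ ≤ η)
    (h2 : ‖n.N.Lam ^ m * (Am W ζ' * (fderiv ℝ (R L (m * o.l) (L.hol ζ' o.x)) 0 * oc (o.a ^ m)))
        - fderiv ℝ (fun u => n.x (L.e o.x u)) 0‖ ≤ η)
    (hη : η * ‖Y₀‖ ≤ 1 / 2)
    (hθ : ‖I * (fderiv ℝ (R L (m * o.l) (L.hol ζ' o.x)) 0
      - fderiv ℝ (R L (m * o.l) (L.hol ζ o.x)) 0)‖ ≤ θ) :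
    ∃ S D : E2 →L[ℝ] E2, Am W ζ = S * Am W ζ' ∧ n.N.Lam ^ m * S = (1 + D) * n.N.Lam ^ m ∧
      ‖D‖ ≤ 2 * ((η + η + (‖fderiv ℝ (fun u => n.x (L.e o.x u)) 0‖ + η) * θ) * ‖Y₀‖) := by
  set X₀ := fderiv ℝ (fun u => n.x (L.e o.x u)) 0 with hX₀
  set T := fderiv ℝ (R L (m * o.l) (L.hol ζ o.x)) 0 with hT
  set T' := fderiv ℝ (R L (m * o.l) (L.hol ζ' o.x)) 0 with hT'
  set U := oc (o.a ^ m) with hU
  set U' := oc (o.a ^ m)⁻¹ with hU'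
  obtain ⟨A', hA1, hA2⟩ := exists_inv_of_det (T := Am W ζ') (W.deriv ζ' h')
  have hη0 : 0 ≤ η := (norm_nonneg _).trans h1
  have hΛ : n.N.Lami ^ m * n.N.Lam ^ m = 1 := by
    have h3 : Commute n.N.Lami n.N.Lam := by
      rw [commute_iff_eq, H790.NF.Lami_mul_Lam n.ok, H790.NF.Lam_mul_Lami n.ok]
    rw [← h3.mul_pow, H790.NF.Lami_mul_Lam n.ok, one_pow]
  set P : E2 →L[ℝ] E2 := n.N.Lam ^ m * (Am W ζ * A') * n.N.Lami ^ m with hP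
  set E₁ := n.N.Lam ^ m * (Am W ζ * (T * U)) - X₀ with hE₁
  set E₂ := n.N.Lam ^ m * (Am W ζ' * (T' * U)) - X₀ with hE₂
  set Θ := U' * ((I * (T' - T)) * U) with hΘ
  have hUU : U * U' = 1 := oc_mul_inv _
  have hkey : P * (X₀ + E₂) = (X₀ + E₁) * (1 + Θ) := by
    have e1 : X₀ + E₂ = n.N.Lam ^ m * (Am W ζ' * (T' * U)) := by rw [hE₂, add_sub_cancel]
    have e2 : X₀ + E₁ = n.N.Lam ^ m * (Am W ζ * (T * U)) := by rw [hE₁, add_sub_cancel]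
    rw [e1, e2, hP, hΘ]
    have e3 : n.N.Lam ^ m * (Am W ζ * A') * n.N.Lami ^ m * (n.N.Lam ^ m * (Am W ζ' * (T' * U)))
        = n.N.Lam ^ m * (Am W ζ * (T' * U)) := by
      calc _ = n.N.Lam ^ m * (Am W ζ * A') * ((n.N.Lami ^ m * n.N.Lam ^ m) *
            (Am W ζ' * (T' * U))) := by simp only [mul_assoc]
        _ = n.N.Lam ^ m * (Am W ζ * ((A' * Am W ζ') * (T' * U))) := by
            rw [hΛ, one_mul]; simp only [mul_assoc]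
        _ = _ := by rw [hA2, one_mul]
    have e4 : n.N.Lam ^ m * (Am W ζ * (T * U)) * (1 + U' * ((I * (T' - T)) * U))
        = n.N.Lam ^ m * (Am W ζ * (T' * U)) := by
      have e5 : T * U * (1 + U' * ((I * (T' - T)) * U)) = T' * U := by
        calc _ = T * U + T * (U * U') * ((I * (T' - T)) * U) := by
              rw [mul_add, mul_one]; simp only [mul_assoc]
          _ = T * U + (T * I) * ((T' - T) * U) := by rw [hUU, mul_one]; simp only [mul_assoc]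
          _ = T' * U := by rw [hI, one_mul, sub_mul]; abel
      calc _ = n.N.Lam ^ m * (Am W ζ * (T * U * (1 + U' * ((I * (T' - T)) * U)))) := by
            simp only [mul_assoc]
        _ = _ := by rw [e5]
    rw [e3, e4]
  have hΘn : ‖Θ‖ ≤ θ := by
    calc ‖Θ‖ ≤ ‖U'‖ * (‖I * (T' - T)‖ * ‖U‖) :=
          (norm_mul_le _ _).trans (mul_le_mul_of_nonneg_left (norm_mul_le _ _) (norm_nonneg _))
      _ ≤ 1 * (θ * 1) := by
          refine mul_le_mul (norm_oc_le _) (mul_le_mul hθ (norm_oc_le _) (norm_nonneg _) ?_)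
            (by positivity) zero_le_one
          exact (norm_nonneg _).trans hθ
      _ = θ := by ring
  have hθ0 : 0 ≤ θ := (norm_nonneg _).trans hθ
  have hn := near_one hkey hY ((mul_le_mul_of_nonneg_right h2 (norm_nonneg _)).trans hη)
  refine ⟨Am W ζ * A', P - 1, ?_, ?_, hn.trans ?_⟩
  · rw [mul_assoc, hA2, mul_one]
  · rw [add_sub_cancel, hP, mul_assoc, hΛ, mul_one]
  · gcongr

theorem rate_aux {c l ε r : ℝ} {m : ℕ} (hc : 0 ≤ c) (hl : 0 ≤ l) (hr : r ≤ c * ε) :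
    Real.exp (-c * l * (⌊ε * m⌋₊ : ℕ)) ≤ Real.exp (c * l) * Real.exp (-(r * l) * m) := by
  rw [← Real.exp_add]
  refine Real.exp_le_exp.2 ?_
  have h1 : ε * m - 1 ≤ (⌊ε * m⌋₊ : ℝ) := (Nat.sub_one_lt_floor (ε * (m : ℝ))).le
  have h2 : c * l * (ε * m - 1) ≤ c * l * (⌊ε * m⌋₊ : ℝ) :=
    mul_le_mul_of_nonneg_left h1 (by positivity)
  have h3 : r * l * m ≤ c * ε * l * m := by gcongr
  nlinarith

/-- (H) of the closing formula -/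
theorem conj_close_of {α C₀ C₁ : ℝ} (hα : 0 < α) (hC₀ : 0 ≤ C₀) (hI : RInv L C₀)
    (hH : RHol L α C₁) (hC₁ : 0 ≤ C₁)
    (hd : ∀ (o : Orb L) (k : Γ), k • o.pos ≠ o.neg → ∀ ξ : ℕ → B,
      (∀ᶠ m : ℕ in atTop, (k * o.β ^ m) • ξ m = ξ m) → Tendsto ξ atTop (𝓝 o.neg) →
      ∃ C : ℝ, 0 < C ∧ ∀ᶠ m : ℕ in atTop, ∀ s ≥ (0 : ℝ),
        dist (L.φ s (L.hol (k⁻¹ • ξ m) o.x)) (L.φ s (L.hol (k⁻¹ • o.neg) o.x))
          ≤ C * Real.exp (-L.χ * (m * o.l))) {c₁ : ℝ} (hc₁ : 0 < c₁) :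
    ∃ ε r : ℝ, 0 < ε ∧ ε ≤ 1 ∧ 0 < r ∧ ∀ (o : Orb L) (n : Nor L o)
      (W : H147.Fwd o n.x n.N.fn c₁) (k : Γ), k • o.pos ≠ o.neg → ∀ ξ : ℕ → B,
      (∀ᶠ m : ℕ in atTop, (k * o.β ^ m) • ξ m = ξ m) → Tendsto ξ atTop (𝓝 o.neg) →
      ∃ S D : ℕ → E2 →L[ℝ] E2,
        (∃ C, ∀ᶠ m : ℕ in atTop, ‖D m‖ ≤ C * Real.exp (-(r * o.l) * m)) ∧
        ∀ᶠ m : ℕ in atTop, Am W (k⁻¹ • ξ m) = S m * Am W (k⁻¹ • o.neg) ∧
          n.N.Lam ^ ⌊ε * m⌋₊ * S m = (1 + D m) * n.N.Lam ^ ⌊ε * m⌋₊ := by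
  have hχ := L.χ_pos
  set ε : ℝ := min 1 (α * L.χ / (2 * (C₀ + 1))) with hε
  set r : ℝ := min (α * L.χ / 2) (c₁ * ε) with hr
  have hε0 : 0 < ε := lt_min one_pos (by positivity)
  have hr0 : 0 < r := lt_min (by positivity) (by positivity)
  have hεC : C₀ * ε ≤ α * L.χ / 2 := by
    have h1 : ε ≤ α * L.χ / (2 * (C₀ + 1)) := min_le_right _ _
    rw [le_div_iff₀ (by positivity)] at h1
    nlinarith
  refine ⟨ε, r, hε0, min_le_left _ _, hr0, fun o n W k hk ξ hξ hlim => ?_⟩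
  have hl := o.ax.pos
  -- the compact set
  have hζ : k⁻¹ • o.neg ≠ o.pos := inv_ne_pos (n := n) k hk
  obtain ⟨K, hKn, hKc, hKs⟩ := exists_mem_nhds_isClosed_subset
    (isOpen_compl_singleton.mem_nhds hζ : ({o.pos} : Set B)ᶜ ∈ 𝓝 (k⁻¹ • o.neg))
  have hKp : o.pos ∉ K := fun h => hKs h rfl
  have hKm : ∀ᶠ m in atTop, k⁻¹ • ξ m ∈ K :=
    (((continuous_const_smul k⁻¹).tendsto o.neg).comp hlim).eventually hKn
  obtain ⟨C₂, hC₂0, hC₂⟩ := conv_zero W hKc.isCompact hKp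
  obtain ⟨C₃, hC₃0, hC₃⟩ := hd o k hk ξ hξ hlim
  obtain ⟨Y₀, hY, _⟩ := exists_smul_eq n
  set X₀ := fderiv ℝ (fun u => n.x (L.e o.x u)) 0 with hX₀
  -- the times
  have hj : Tendsto (fun m : ℕ => ⌊ε * (m : ℝ)⌋₊) atTop atTop :=
    tendsto_nat_floor_atTop.comp (tendsto_natCast_atTop_atTop.const_mul_atTop hε0)
  have hC₂' := hj.eventually hC₂
  have hsmall : ∀ᶠ m : ℕ in atTop,
      C₂ * Real.exp (-c₁ * o.l * (⌊ε * (m : ℝ)⌋₊ : ℕ)) * ‖Y₀‖ ≤ 1 / 2 := by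
    have h1 : Tendsto (fun j : ℕ => C₂ * Real.exp (-c₁ * o.l * (j : ℕ)) * ‖Y₀‖) atTop
        (𝓝 (C₂ * 0 * ‖Y₀‖)) := by
      refine Tendsto.mul_const _ (Tendsto.const_mul _ ?_)
      have h2 : Tendsto (fun j : ℕ => c₁ * o.l * (j : ℝ)) atTop atTop :=
        tendsto_natCast_atTop_atTop.const_mul_atTop (mul_pos hc₁ hl)
      refine (Real.tendsto_exp_neg_atTop_nhds_zero.comp h2).congr fun j => ?_
      simp only [Function.comp_apply]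
      congr 1
      ring
    rw [mul_zero, zero_mul] at h1
    exact hj.eventually (h1.eventually (ge_mem_nhds (by norm_num : (0 : ℝ) < 1 / 2)))
  -- pointwise construction
  have hpt : ∀ᶠ m : ℕ in atTop, ∃ S D : E2 →L[ℝ] E2,
      (Am W (k⁻¹ • ξ m) = S * Am W (k⁻¹ • o.neg) ∧
        n.N.Lam ^ ⌊ε * m⌋₊ * S = (1 + D) * n.N.Lam ^ ⌊ε * m⌋₊) ∧
      ‖D‖ ≤ (2 * ((C₂ + C₂ + (‖X₀‖ + C₂) * (C₁ * C₃ ^ α)) * ‖Y₀‖) * Real.exp (c₁ * o.l))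
        * Real.exp (-(r * o.l) * m) := by
    filter_upwards [hC₂', hsmall, hKm, hC₃] with m h2 h3 h4 h5
    obtain ⟨ht, h2⟩ := h2
    set j : ℕ := ⌊ε * (m : ℝ)⌋₊ with hjdef
    obtain ⟨I, hI1, hI2, hI3⟩ := hI (L.hol (k⁻¹ • ξ m) o.x) (j * o.l) ht
    set η : ℝ := C₂ * Real.exp (-c₁ * o.l * (j : ℕ)) with hη
    have hjle : (j : ℝ) ≤ ε * m := Nat.floor_le (by positivity)
    set q : ℝ := Real.exp (-(r * o.l) * m) with hq
    have hq0 : 0 < q := Real.exp_pos _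
    have hE1 : 1 ≤ Real.exp (c₁ * o.l) := Real.one_le_exp (by positivity)
    have hηle : η ≤ C₂ * (Real.exp (c₁ * o.l) * q) := by
      rw [hη]
      refine mul_le_mul_of_nonneg_left ?_ hC₂0
      exact rate_aux hc₁.le hl.le (min_le_right _ _)
    have hη1 : η ≤ C₂ := by
      rw [hη]
      refine mul_le_of_le_one_right hC₂0 (Real.exp_le_one_iff.2 ?_)
      have : (0 : ℝ) ≤ j := Nat.cast_nonneg j
      have := mul_nonneg (mul_pos hc₁ hl).le this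
      linarith
    -- the difference of the contractions
    have hδ0 : 0 < C₃ * Real.exp (-L.χ * (m * o.l)) := by positivity
    have hdist : ∀ s ∈ Icc 0 (j * o.l), dist (L.φ s (L.hol (k⁻¹ • o.neg) o.x))
        (L.φ s (L.hol (k⁻¹ • ξ m) o.x)) ≤ C₃ * Real.exp (-L.χ * (m * o.l)) := fun s hs => by
      rw [dist_comm]
      exact h5 s hs.1
    have hT := hH _ _ (j * o.l) ht _ hδ0 hdist
    have hθ : ‖I * (fderiv ℝ (R L (j * o.l) (L.hol (k⁻¹ • o.neg) o.x)) 0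
        - fderiv ℝ (R L (j * o.l) (L.hol (k⁻¹ • ξ m) o.x)) 0)‖ ≤ (C₁ * C₃ ^ α) * q := by
      refine (norm_mul_le _ _).trans ((mul_le_mul hI3 hT (norm_nonneg _)
        (Real.exp_nonneg _)).trans ?_)
      rw [Real.mul_rpow hC₃0.le (Real.exp_nonneg _), ← Real.exp_mul]
      have e1 : Real.exp (C₀ * (j * o.l)) * (C₁ * (C₃ ^ α * Real.exp (-L.χ * (m * o.l) * α)))
          = (C₁ * C₃ ^ α) * Real.exp (C₀ * (j * o.l) + -L.χ * (m * o.l) * α) := by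
        rw [Real.exp_add]
        ring
      rw [e1]
      refine mul_le_mul_of_nonneg_left (Real.exp_le_exp.2 ?_) (by positivity)
      have hm0 : (0 : ℝ) ≤ m := Nat.cast_nonneg m
      have e2 : C₀ * (j * o.l) ≤ α * L.χ / 2 * (m * o.l) := by
        calc C₀ * (j * o.l) ≤ C₀ * (ε * m * o.l) := by gcongr
          _ = C₀ * ε * (m * o.l) := by ring
          _ ≤ _ := mul_le_mul_of_nonneg_right hεC (by positivity)
      have e3 : r * (m * o.l) ≤ α * L.χ / 2 * (m * o.l) :=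
        mul_le_mul_of_nonneg_right (min_le_left _ _) (by positivity)
      nlinarith
    obtain ⟨S, D, h6, h7, h8⟩ := conj_pair W hζ hY hI2 (h2 _ h4) (h2 _ (mem_of_mem_nhds hKn))
      h3 hθ
    refine ⟨S, D, ⟨h6, h7⟩, h8.trans ?_⟩
    have hCC : 0 ≤ C₁ * C₃ ^ α := by positivity
    have hX0 : 0 ≤ ‖X₀‖ := norm_nonneg _
    calc 2 * ((η + η + (‖X₀‖ + η) * ((C₁ * C₃ ^ α) * q)) * ‖Y₀‖)
        ≤ 2 * ((C₂ * (Real.exp (c₁ * o.l) * q) + C₂ * (Real.exp (c₁ * o.l) * q) +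
          (‖X₀‖ + C₂) * ((C₁ * C₃ ^ α) * (Real.exp (c₁ * o.l) * q))) * ‖Y₀‖) := by
          have hq1 : q ≤ Real.exp (c₁ * o.l) * q := le_mul_of_one_le_left hq0.le hE1
          gcongr
      _ = _ := by ring
  -- choice
  obtain ⟨M, hM⟩ := eventually_atTop.1 hpt
  have h' : ∀ m : ℕ, ∃ S D : E2 →L[ℝ] E2, M ≤ m → (Am W (k⁻¹ • ξ m) = S * Am W (k⁻¹ • o.neg) ∧
        n.N.Lam ^ ⌊ε * m⌋₊ * S = (1 + D) * n.N.Lam ^ ⌊ε * m⌋₊) ∧
      ‖D‖ ≤ (2 * ((C₂ + C₂ + (‖X₀‖ + C₂) * (C₁ * C₃ ^ α)) * ‖Y₀‖) * Real.exp (c₁ * o.l))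
        * Real.exp (-(r * o.l) * m) := fun m => by
    by_cases h : M ≤ m
    · obtain ⟨S, D, hh⟩ := hM m h
      exact ⟨S, D, fun _ => hh⟩
    · exact ⟨0, 0, fun h' => absurd h' h⟩
  choose S D hSD using h'
  refine ⟨S, D, ⟨2 * ((C₂ + C₂ + (‖X₀‖ + C₂) * (C₁ * C₃ ^ α)) * ‖Y₀‖) * Real.exp (c₁ * o.l),
    ?_⟩, ?_⟩
  · filter_upwards [eventually_ge_atTop M] with m hm
    exact (hSD m hm).2
  · filter_upwards [eventually_ge_atTop M] with m hm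
    exact (hSD m hm).1

/-- **(H)** of the closing formula -/
theorem conj_close (L : Leaf Γ X B) {c₁ : ℝ} (hc₁ : 0 < c₁) :
    ∃ ε r : ℝ, 0 < ε ∧ ε ≤ 1 ∧ 0 < r ∧ ∀ (o : Orb L) (n : Nor L o)
      (W : H147.Fwd o n.x n.N.fn c₁) (k : Γ), k • o.pos ≠ o.neg → ∀ ξ : ℕ → B,
      (∀ᶠ m : ℕ in atTop, (k * o.β ^ m) • ξ m = ξ m) → Tendsto ξ atTop (𝓝 o.neg) →
      ∃ S D : ℕ → E2 →L[ℝ] E2,
        (∃ C, ∀ᶠ m : ℕ in atTop, ‖D m‖ ≤ C * Real.exp (-(r * o.l) * m)) ∧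
        ∀ᶠ m : ℕ in atTop, Am W (k⁻¹ • ξ m) = S m * Am W (k⁻¹ • o.neg) ∧
          n.N.Lam ^ ⌊ε * m⌋₊ * S m = (1 + D m) * n.N.Lam ^ ⌊ε * m⌋₊ := by
  obtain ⟨α, C₁, hα, hC₁, hH⟩ := exists_RHol L
  obtain ⟨C₀, hC₀, hI⟩ := H992.exists_R_inv L
  exact conj_close_of hα hC₀ hI hH hC₁ dist_hol hc₁

end Vale.Agent.P207.N3.H310
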