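import Vale.Agent.P207.N3.Top.Defs

/-!
# P207, line N3: there is a closed orbit
-/

open Set Filter Topology Metric MeasureTheory
open scoped ContDiff

set_option linter.unusedSectionVars false

noncomputable section

namespace Vale.Agent.P207.N3.H310

variable {Γ X B : Type} [Group Γ] [MetricSpace X] [ProperSpace X] [MulAction Γ X]
  [IsIsometricSMul Γ X] [TopologicalSpace B] [CompactSpace B] [T2Space B] [MulAction Γ B]
  [ContinuousConstSMul Γ B]

/-- the group is not trivial: the levels are unbounded -/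
theorem exists_ne_one (L : Leaf Γ X B) : ∃ β : Γ, β ≠ 1 := by
  by_contra h
  push Not at h
  obtain ⟨K, hK, hcov⟩ := L.cocompact
  obtain ⟨x⟩ := L.nonempty
  have hmem : ∀ y : X, y ∈ K := by
    intro y
    obtain ⟨g, hg⟩ := hcov y
    rwa [h g, one_smul] at hg
  obtain ⟨C, hC⟩ := hK.exists_bound_of_continuousOn L.lv_cont.continuousOn
  have h1 := hC (L.φ (C + 1 - L.lv x) x) (hmem _)
  rw [L.lv_φ, Real.norm_eq_abs] at h1
  have h2 := le_abs_self (L.lv x + (C + 1 - L.lv x))
  linarith

/-- there is a closed orbit -/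
theorem exists_orb (L : Leaf Γ X B) : Nonempty (Orb L) := by
  obtain ⟨β, hβ⟩ := exists_ne_one L
  obtain ⟨x, l, a, hl, he⟩ := L.exists_axis β hβ
  exact ⟨⟨β, x, l, a, hl, he⟩⟩

end Vale.Agent.P207.N3.H310
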