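import Vale.Agent.P207.N3.H310.Hd
import Vale.Agent.P207.N3.H310.Orb
import Vale.Agent.P207.N3.H969.PartA
import Vale.Agent.P207.N3.H969.FormCase
import Vale.Agent.P207.N3.H662.FDefs

/-!
# P207, line N3: Part A, from the forward coordinates and the closing formula to `CaseI`
-/

open Set Filter Topology Metric MeasureTheory
open scoped ContDiff

set_option linter.unusedSectionVars false

noncomputable section

namespace Vale.Agent.P207.N3.H310

open Vale.Agent.P207.N3.H147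

variable {Γ X B : Type} [Group Γ] [MetricSpace X] [ProperSpace X] [MulAction Γ X]
  [IsIsometricSMul Γ X] [TopologicalSpace B] [CompactSpace B] [T2Space B] [MulAction Γ B]
  [ContinuousConstSMul Γ B] [MeasurableSpace B] [BorelSpace B]

/-- the output of P4b -/
def P4Out (L : Leaf Γ X B) : Prop :=
  ∃ c > 0, ∀ (o : Orb L) (n : Nor L o), ∃ W : Fwd o n.x n.N.fn c,
    ∀ k : Γ, k • o.pos ≠ o.neg → Nonempty (Closing o n.x n.N.fn c k (W.Bm k))

/-- if no closed orbit splits, the matrices `B_k` of every closed orbit preserve a definite form -/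
theorem form_of_no_split {L : Leaf Γ X B} (A : Area L) (hnor : ∀ o : Orb L, Nonempty (Nor L o))
    (h4 : P4Out L) (hs : ∀ (o : Orb L) (n : Nor L o), ¬ n.N.Split) (o : Orb L) (n : Nor L o) :
    ∃ c > 0, ∃ (W : Fwd o n.x n.N.fn c) (Λ : E2 →L[ℝ] E2), (∀ v, n.N.fn v = Λ v) ∧ Λ.det ≠ 0 ∧
      Form (K := KK o) (mx Λ) (fun k => mx (W.Bm k.1)) := by
  obtain ⟨c, hc, h4⟩ := h4
  have hR : ∀ o' : Orb L, R1 (fderiv ℝ o'.ret 0) := by
    intro o'
    obtain ⟨n'⟩ := hnor o'
    exact n'.R1_ret_iff.2 (hs o' n')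
  obtain ⟨W, Λ, hΛ, hdet, h | h⟩ := form_or_line hc (h4 o n) (hs o n) hR
  · exact ⟨c, hc, W, Λ, hΛ, hdet, h⟩
  · exact (H969.line_false A n W hΛ h).elim

/-- **PART A** (the field `partA` of `Outs`) -/
theorem partA {L : Leaf Γ X B} (A : Area L) (hnor : ∀ o : Orb L, Nonempty (Nor L o))
    (h4 : P4Out L) (hs : ∀ (o : Orb L) (n : Nor L o), ¬ n.N.Split) :
    Nonempty (H662.CaseI L A) := by
  obtain ⟨o⟩ := exists_orb L
  obtain ⟨n⟩ := hnor o
  obtain ⟨c, -, W, Λ, hΛ, -, hF⟩ := form_of_no_split A hnor h4 hs o n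
  exact H969.caseI_of_Form A n W hΛ hF

end Vale.Agent.P207.N3.H310
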