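import Vale.Agent.P207.H575.T3.SL2

/-!
# P207, line N3, head of Part A: the SL2 lemma for determinants `± 1`

`EqM a` says that the two eigenvalues of the real matrix `a` have the same modulus. A semigroup of
matrices with `|det| = 1` and `EqM` preserves a positive definite form, or a line.
-/

namespace Vale.Agent.P207.N3.H310

open Matrix Filter Topology Vale.Agent.P207.H575.T3

/-- the two eigenvalues have the same modulus -/
def EqM (a : M2) : Prop := a.trace ^ 2 ≤ 4 * a.det ∨ a.trace = 0

theorem isClosed_EqM : IsClosed {a : M2 | EqM a} := by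
  have h1 : Continuous fun a : M2 => a.trace := Continuous.matrix_trace continuous_id
  have h2 : Continuous fun a : M2 => a.det := Continuous.matrix_det continuous_id
  exact (isClosed_le (h1.pow 2) (continuous_const.mul h2)).union
    (isClosed_eq h1 continuous_const)

theorem det_smul2 (c : ℝ) (a : M2) : (c • a).det = c ^ 2 * a.det := by
  rw [Matrix.det_smul, Fintype.card_fin]

theorem EqM_smul {c : ℝ} (hc : c ≠ 0) {a : M2} : EqM (c • a) ↔ EqM a := by
  unfold EqM
  rw [Matrix.trace_smul, det_smul2, smul_eq_mul]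
  have hc2 : 0 < c ^ 2 := by positivity
  constructor
  · rintro (h | h)
    · left
      have : c ^ 2 * a.trace ^ 2 ≤ c ^ 2 * (4 * a.det) := by nlinarith
      exact le_of_mul_le_mul_left this hc2
    · right
      exact (mul_eq_zero.1 h).resolve_left hc
  · rintro (h | h)
    · left
      nlinarith [mul_le_mul_of_nonneg_left h hc2.le]
    · right
      rw [h, mul_zero]

theorem EqM_one {a : M2} (hd : a.det = 1) (h : EqM a) : |a.trace| ≤ 2 := by
  have h1 : a.trace ^ 2 ≤ 2 ^ 2 := by
    rcases h with h | h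
    · rw [hd] at h
      linarith
    · rw [h]
      norm_num
  exact abs_le_of_sq_le_sq' h1 (by norm_num) |> abs_le.2

theorem EqM_neg {a : M2} (hd : a.det = -1) (h : EqM a) : a.trace = 0 := by
  rcases h with h | h
  · rw [hd] at h
    nlinarith [sq_nonneg a.trace]
  · exact h

/-- Cayley-Hamilton -/
theorem cayley (a : M2) : a * a = a.trace • a - a.det • (1 : M2) := by
  rw [tr2, Matrix.det_fin_two]
  ext i j
  rw [mul2]
  fin_cases i <;> fin_cases j <;> simp <;> ring

theorem sq_of_neg {t : M2} (hd : t.det = -1) (h : EqM t) : t * t = 1 := by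
  rw [cayley, EqM_neg hd h, hd]
  simp

/-- if `t² = (t s)² = 1` then `t s t` is inverse to `s` -/
theorem conj_right {t s : M2} (ht : t * t = 1) (hts : t * s * (t * s) = 1) :
    t * s * t * s = 1 ∧ s * (t * s * t) = 1 := by
  have h1 : t * s * t * s = 1 := by rw [← hts]; simp only [mul_assoc]
  refine ⟨h1, ?_⟩
  have h2 : s * t * s = t := by
    calc s * t * s = (t * t) * (s * t * s) := by rw [ht, one_mul]
      _ = t * (t * s * t * s) := by simp only [mul_assoc]
      _ = t := by rw [h1, mul_one]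
  calc s * (t * s * t) = s * t * s * t := by simp only [mul_assoc]
    _ = 1 := by rw [h2, ht]

/-- the elements of determinant one commute if there is an element of determinant `-1` -/
theorem comm_of_neg {S : Set M2} (hmul : ∀ a ∈ S, ∀ b ∈ S, a * b ∈ S)
    (heq : ∀ a ∈ S, EqM a) {t : M2} (ht : t ∈ S) (htd : t.det = -1) {a b : M2} (ha : a ∈ S)
    (hb : b ∈ S) (had : a.det = 1) (hbd : b.det = 1) : a * b = b * a := by
  have htt := sq_of_neg htd (heq t ht)
  have key : ∀ s ∈ S, s.det = 1 → t * s * t * s = 1 ∧ s * (t * s * t) = 1 := by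
    intro s hs hsd
    refine conj_right htt (sq_of_neg ?_ (heq _ (hmul t ht s hs)))
    rw [Matrix.det_mul, htd, hsd, mul_one]
  have hab : (a * b).det = 1 := by rw [Matrix.det_mul, had, hbd, mul_one]
  obtain ⟨h1, h1'⟩ := key a ha had
  obtain ⟨h2, h2'⟩ := key b hb hbd
  obtain ⟨h3, h3'⟩ := key _ (hmul a ha b hb) hab
  have h4 : t * (a * b) * t = t * a * t * (t * b * t) := by
    calc t * (a * b) * t = t * a * (1 * (b * t)) := by simp only [mul_assoc, one_mul]
      _ = t * a * ((t * t) * (b * t)) := by rw [htt]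
      _ = t * a * t * (t * b * t) := by simp only [mul_assoc]
  rw [h4] at h3
  -- i₁ i₂ a b = 1
  calc a * b = (b * (t * b * t)) * (a * b) := by rw [h2', one_mul]
    _ = b * ((a * (t * a * t)) * ((t * b * t) * (a * b))) := by
        rw [h1', one_mul]; simp only [mul_assoc]
    _ = b * a * (t * a * t * (t * b * t) * (a * b)) := by simp only [mul_assoc]
    _ = b * a := by rw [h3, mul_one]

theorem Jm_neg {b : M2} (hb : b.det = -1) : bᵀ * Jm * b = -Jm := by
  rw [Matrix.det_fin_two] at hb
  ext i j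
  rw [mul2, mul2, mul2]
  fin_cases i <;> fin_cases j <;> simp [Jm, Matrix.transpose_apply]
  · ring
  · linarith
  · linarith
  · ring

/-- the form of an elliptic matrix: it is preserved by the matrices of determinant one commuting
with `a`, and by the matrices `b` of determinant `-1` with `a b = b a⁻¹` -/
theorem form_pm {a : M2} (ha : a.det = 1) (hta : |a.trace| < 2) :
    ∃ P : M2, P.det ≠ 0 ∧ (∀ b : M2, b.det = 1 → a * b = b * a →
      (P * b)ᵀ * (P * b) = Pᵀ * P) ∧
      ∀ b : M2, b.det = -1 → a * b = b * (a.trace • (1 : M2) - a) →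
        (P * b)ᵀ * (P * b) = Pᵀ * P := by
  obtain ⟨x, hx⟩ : ∃ x, x = (a 0 0 - a 1 1) / 2 := ⟨_, rfl⟩
  obtain ⟨c, hc⟩ : ∃ c, c = (a 0 0 + a 1 1) / 2 := ⟨_, rfl⟩
  have h00 : a 0 0 = c + x := by rw [hx, hc]; ring
  have h11 : a 1 1 = c - x := by rw [hx, hc]; ring
  have htr : a.trace = 2 * c := by rw [tr2, h00, h11]; ring
  have hc1 : c * c < 1 := by
    have h1 : |c| < 1 := by
      rw [htr, abs_mul, abs_two] at hta
      linarith
    have h2 := abs_mul_abs_self c
    have h3 : |c| * |c| < 1 * 1 := mul_self_lt_mul_self (abs_nonneg c) h1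
    linarith
  have hd0 : 0 < Real.sqrt (1 - c * c) := Real.sqrt_pos.mpr (by linarith)
  have hds : Real.sqrt (1 - c * c) * Real.sqrt (1 - c * c) = 1 - c * c :=
    Real.mul_self_sqrt (by linarith)
  obtain ⟨d, hdd⟩ : ∃ d, d = Real.sqrt (1 - c * c) := ⟨_, rfl⟩
  rw [← hdd] at hd0 hds
  have ha2 := ha
  rw [Matrix.det_fin_two, h00, h11] at ha2
  have hD : x * x + a 0 1 * a 1 0 = -(d * d) := by rw [hds]; linarith
  have hz0 : a 1 0 ≠ 0 := by
    intro h0
    rw [h0, mul_zero, add_zero] at hD
    have := mul_self_nonneg x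
    have := mul_pos hd0 hd0
    linarith
  let P : M2 := !![a 1 0, -x; 0, d]
  have hP : Pᵀ * P = a 1 0 • (Jm * (a - c • (1 : M2))) := by
    ext i j
    rw [mul2, Matrix.smul_apply, mul2]
    fin_cases i <;> fin_cases j <;>
      simp [P, Jm, Matrix.transpose_apply, h00, h11]
    · ring
    · linarith
  refine ⟨P, ?_, fun b hb hab => ?_, fun b hb hab => ?_⟩
  · rw [Matrix.det_fin_two]
    simp [P, hz0, hd0.ne']
  · have hJ := Jm_inv hb
    have hcomm : (a - c • (1 : M2)) * b = b * (a - c • (1 : M2)) := by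
      rw [sub_mul, mul_sub, hab]
      simp
    calc (P * b)ᵀ * (P * b) = bᵀ * (Pᵀ * P) * b := by
          rw [Matrix.transpose_mul]; simp only [mul_assoc]
      _ = a 1 0 • (bᵀ * Jm * ((a - c • (1 : M2)) * b)) := by
          rw [hP]
          simp only [mul_smul_comm, smul_mul_assoc, mul_assoc]
      _ = a 1 0 • ((bᵀ * Jm * b) * (a - c • (1 : M2))) := by
          rw [hcomm]; simp only [mul_assoc]
      _ = Pᵀ * P := by rw [hJ, hP]
  · have hJ := Jm_neg hb
    have hcomm : (a - c • (1 : M2)) * b = - (b * (a - c • (1 : M2))) := by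
      rw [sub_mul, mul_sub, hab, htr, mul_sub]
      simp only [smul_mul_assoc, mul_smul_comm, one_mul, mul_one]
      module
    calc (P * b)ᵀ * (P * b) = bᵀ * (Pᵀ * P) * b := by
          rw [Matrix.transpose_mul]; simp only [mul_assoc]
      _ = a 1 0 • (bᵀ * Jm * ((a - c • (1 : M2)) * b)) := by
          rw [hP]
          simp only [mul_smul_comm, smul_mul_assoc, mul_assoc]
      _ = a 1 0 • (-((bᵀ * Jm * b) * (a - c • (1 : M2)))) := by
          rw [hcomm]; simp only [mul_assoc, mul_neg]
      _ = Pᵀ * P := by rw [hJ, hP]; simp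

/-- a vector killed by a non zero matrix is a multiple of any other non zero such vector -/
theorem ker_line {n : M2} (hn : n ≠ 0) {v0 v1 w0 w1 : ℝ} (hv : v0 ≠ 0 ∨ v1 ≠ 0)
    (h1 : n 0 0 * v0 + n 0 1 * v1 = 0) (h2 : n 1 0 * v0 + n 1 1 * v1 = 0)
    (h3 : n 0 0 * w0 + n 0 1 * w1 = 0) (h4 : n 1 0 * w0 + n 1 1 * w1 = 0) :
    ∃ c : ℝ, w0 = c * v0 ∧ w1 = c * v1 := by
  have hD : v0 * w1 - v1 * w0 = 0 := by
    by_contra hD
    apply hn
    ext i j
    have e : ∀ a b : ℝ, a * v0 + b * v1 = 0 → a * w0 + b * w1 = 0 → a = 0 ∧ b = 0 := by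
      intro a b e1 e2
      constructor
      · have : a * (v0 * w1 - v1 * w0) = 0 := by linear_combination w1 * e1 - v1 * e2
        exact (mul_eq_zero.1 this).resolve_right hD
      · have : b * (v0 * w1 - v1 * w0) = 0 := by linear_combination v0 * e2 - w0 * e1
        exact (mul_eq_zero.1 this).resolve_right hD
    fin_cases i <;> fin_cases j
    · exact (e _ _ h1 h3).1
    · exact (e _ _ h1 h3).2
    · exact (e _ _ h2 h4).1
    · exact (e _ _ h2 h4).2
  rcases hv with h | h
  · refine ⟨w0 / v0, by field_simp, ?_⟩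
    field_simp
    linarith
  · refine ⟨w1 / v1, ?_, by field_simp⟩
    field_simp
    linarith

/-- SL2 LEMMA for determinants `± 1`. -/
theorem alt_pm {S : Set M2} (hmul : ∀ a ∈ S, ∀ b ∈ S, a * b ∈ S)
    (hdet : ∀ a ∈ S, |a.det| = 1) (heq : ∀ a ∈ S, EqM a) :
    (∃ P : M2, P.det ≠ 0 ∧ ∀ s ∈ S, (P * s)ᵀ * (P * s) = Pᵀ * P) ∨
    (∃ v0 v1 : ℝ, (v0 ≠ 0 ∨ v1 ≠ 0) ∧ ∀ s ∈ S, ∃ c : ℝ, |c| = 1 ∧
      s 0 0 * v0 + s 0 1 * v1 = c * v0 ∧ s 1 0 * v0 + s 1 1 * v1 = c * v1) := by
  by_cases hneg : ∃ t ∈ S, t.det = -1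
  swap
  · push Not at hneg
    have hdet1 : ∀ a ∈ S, a.det = 1 := fun a ha =>
      (eq_or_eq_neg_of_abs_eq (hdet a ha)).resolve_right (hneg a ha)
    exact sl2_alt hmul hdet1 fun a ha => EqM_one (hdet1 a ha) (heq a ha)
  obtain ⟨t, ht, htd⟩ := hneg
  have htt := sq_of_neg htd (heq t ht)
  -- every element is of determinant one, or an involution
  have hinv : ∀ s ∈ S, s.det = -1 → s * s = 1 := fun s hs hsd => sq_of_neg hsd (heq s hs)
  by_cases hne : ∃ e ∈ S, e.det = 1 ∧ e ≠ 1 ∧ e ≠ -1
  · obtain ⟨e, he, hed, he1, he2⟩ := hne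
    have hte : |e.trace| ≤ 2 := EqM_one hed (heq e he)
    have hcomm : ∀ s ∈ S, s.det = 1 → e * s = s * e := fun s hs hsd =>
      comm_of_neg hmul heq ht htd he hs hed hsd
    -- `e s = s (tr e - e)` if `det s = -1`
    have hanti : ∀ s ∈ S, s.det = -1 → e * s = s * (e.trace • (1 : M2) - e) := by
      intro s hs hsd
      have h1 : s * e * (s * e) = 1 := by
        refine hinv _ (hmul s hs e he) ?_
        rw [Matrix.det_mul, hsd, hed, mul_one]
      have h2 : e.trace • (1 : M2) - e = e.adjugate := by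
        rw [adj2, tr2]
        ext i j
        fin_cases i <;> fin_cases j <;> simp
      have h3 : e * e.adjugate = 1 := by rw [Matrix.mul_adjugate, hed, one_smul]
      rw [h2]
      calc e * s = (s * s) * (e * s) * (e * e.adjugate) := by
            rw [hinv s hs hsd, one_mul, h3, mul_one]
        _ = s * (s * e * (s * e)) * e.adjugate := by simp only [mul_assoc]
        _ = s * e.adjugate := by rw [h1, mul_one]
    rcases lt_or_eq_of_le hte with hlt | hpar
    · obtain ⟨P, hP0, hP1, hP2⟩ := form_pm hed hlt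
      refine Or.inl ⟨P, hP0, fun s hs => ?_⟩
      rcases eq_or_eq_neg_of_abs_eq (hdet s hs) with h | h
      · exact hP1 s h (hcomm s hs h)
      · exact hP2 s h (hanti s hs h)
    · right
      -- parabolic case
      obtain ⟨ε, hε⟩ : ∃ ε, ε = e.trace / 2 := ⟨_, rfl⟩
      have hε1 : ε * ε = 1 := by
        have : |ε| = 1 := by rw [hε, abs_div, abs_two, hpar]; norm_num
        rw [← abs_mul_abs_self, this, one_mul]
      have htre : e.trace = 2 * ε := by rw [hε]; ring
      obtain ⟨n, hn⟩ : ∃ n : M2, n = e - ε • (1 : M2) := ⟨_, rfl⟩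
      have hnn : n * n = 0 := by
        rw [hn, sub_mul, mul_sub, mul_sub, cayley, htre, hed]
        simp only [smul_mul_assoc, mul_smul_comm, one_mul, mul_one, smul_smul, hε1]
        module
      have hn0 : n ≠ 0 := by
        intro h0
        rw [hn, sub_eq_zero] at h0
        have h1 : (ε - 1) * (ε + 1) = 0 := by linear_combination hε1
        rcases mul_eq_zero.1 h1 with h2 | h2
        · apply he1
          rw [h0, show ε = 1 by linarith, one_smul]
        · apply he2
          rw [h0, show ε = -1 by linarith, neg_smul, one_smul]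
      -- a kernel vector
      obtain ⟨v0, v1, hv, hv1, hv2⟩ : ∃ v0 v1 : ℝ, (v0 ≠ 0 ∨ v1 ≠ 0) ∧
          n 0 0 * v0 + n 0 1 * v1 = 0 ∧ n 1 0 * v0 + n 1 1 * v1 = 0 := by
        have e00 := congrFun (congrFun hnn 0) 0
        have e01 := congrFun (congrFun hnn 0) 1
        have e10 := congrFun (congrFun hnn 1) 0
        have e11 := congrFun (congrFun hnn 1) 1
        rw [mul2] at e00 e01 e10 e11
        by_cases hc : n 0 0 ≠ 0 ∨ n 1 0 ≠ 0
        · exact ⟨n 0 0, n 1 0, hc, e00, e10⟩
        · push Not at hc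
          refine ⟨n 0 1, n 1 1, ?_, e01, e11⟩
          by_contra hd
          push Not at hd
          apply hn0
          ext i j
          fin_cases i <;> fin_cases j
          · exact hc.1
          · exact hd.1
          · exact hc.2
          · exact hd.2
      have hns : ∀ s ∈ S, ∃ δ : ℝ, n * s = δ • (s * n) := by
        intro s hs
        rcases eq_or_eq_neg_of_abs_eq (hdet s hs) with h | h
        · refine ⟨1, ?_⟩
          rw [hn, sub_mul, mul_sub, hcomm s hs h]
          simp
        · refine ⟨-1, ?_⟩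
          rw [hn, sub_mul, mul_sub, hanti s hs h, htre, mul_sub]
          simp only [smul_mul_assoc, mul_smul_comm, one_mul, mul_one]
          module
      refine ⟨v0, v1, hv, fun s hs => ?_⟩
      obtain ⟨δ, hδ⟩ := hns s hs
      have e00 := congrFun (congrFun hδ 0) 0
      have e01 := congrFun (congrFun hδ 0) 1
      have e10 := congrFun (congrFun hδ 1) 0
      have e11 := congrFun (congrFun hδ 1) 1
      rw [Matrix.smul_apply, mul2, mul2, smul_eq_mul] at e00 e01 e10 e11
      obtain ⟨c, hc0, hc1⟩ := ker_line hn0 hv hv1 hv2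
        (w0 := s 0 0 * v0 + s 0 1 * v1) (w1 := s 1 0 * v0 + s 1 1 * v1)
        (by linear_combination v0 * e00 + v1 * e01 + δ * s 0 0 * hv1 + δ * s 0 1 * hv2)
        (by linear_combination v0 * e10 + v1 * e11 + δ * s 1 0 * hv1 + δ * s 1 1 * hv2)
      refine ⟨c, ?_, hc0, hc1⟩
      rcases eq_or_eq_neg_of_abs_eq (hdet s hs) with h | h
      · exact eig_abs h (EqM_one h (heq s hs)) hv hc0 hc1
      · have hss := hinv s hs h
        have f00 := congrFun (congrFun hss 0) 0
        have f01 := congrFun (congrFun hss 0) 1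
        have f10 := congrFun (congrFun hss 1) 0
        have f11 := congrFun (congrFun hss 1) 1
        rw [mul2] at f00 f01 f10 f11
        simp at f00 f01 f10 f11
        have g0 : (c * c - 1) * v0 = 0 := by
          linear_combination v0 * f00 + v1 * f01 - s 0 0 * hc0 - s 0 1 * hc1 - c * hc0
        have g1 : (c * c - 1) * v1 = 0 := by
          linear_combination v0 * f10 + v1 * f11 - s 1 0 * hc0 - s 1 1 * hc1 - c * hc1
        have g2 : c * c - 1 = 0 := by
          rcases hv with hv | hv
          · exact (mul_eq_zero.1 g0).resolve_right hv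
          · exact (mul_eq_zero.1 g1).resolve_right hv
        have g3 : |c| * |c| = 1 := by rw [abs_mul_abs_self]; linarith
        nlinarith [abs_nonneg c]
  · right
    push Not at hne
    -- all elements of determinant one are `± 1`
    obtain ⟨v0, v1, hv, hv1, hv2⟩ : ∃ v0 v1 : ℝ, (v0 ≠ 0 ∨ v1 ≠ 0) ∧
        t 0 0 * v0 + t 0 1 * v1 = v0 ∧ t 1 0 * v0 + t 1 1 * v1 = v1 := by
      have f00 := congrFun (congrFun htt 0) 0
      have f01 := congrFun (congrFun htt 0) 1
      have f10 := congrFun (congrFun htt 1) 0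
      have f11 := congrFun (congrFun htt 1) 1
      rw [mul2] at f00 f01 f10 f11
      simp at f00 f01 f10 f11
      by_cases hc : 1 + t 0 0 ≠ 0 ∨ t 1 0 ≠ 0
      · exact ⟨1 + t 0 0, t 1 0, hc, by linear_combination f00, by linear_combination f10⟩
      · push Not at hc
        refine ⟨t 0 1, 1 + t 1 1, ?_, by linear_combination f01, by linear_combination f11⟩
        by_contra hd
        push Not at hd
        rw [Matrix.det_fin_two] at htd
        have h1 : t 0 0 = -1 := by linarith [hc.1]
        have h2 : t 1 1 = -1 := by linarith [hd.2]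
        rw [h1, h2, hd.1, hc.2] at htd
        norm_num at htd
    refine ⟨v0, v1, hv, fun s hs => ?_⟩
    have hst : ∃ c : ℝ, |c| = 1 ∧ (s = c • (1 : M2) ∨ s = c • t) := by
      have aux : ∀ r ∈ S, r.det = 1 → ∃ c : ℝ, |c| = 1 ∧ r = c • (1 : M2) := by
        intro r hr hrd
        by_cases h1 : r = 1
        · exact ⟨1, by simp, by rw [h1, one_smul]⟩
        · exact ⟨-1, by simp, by rw [hne r hr hrd h1, neg_smul, one_smul]⟩
      rcases eq_or_eq_neg_of_abs_eq (hdet s hs) with h | h
      · obtain ⟨c, hc, hc2⟩ := aux s hs h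
        exact ⟨c, hc, Or.inl hc2⟩
      · obtain ⟨c, hc, hc2⟩ := aux (t * s) (hmul t ht s hs) (by
          rw [Matrix.det_mul, htd, h]; norm_num)
        refine ⟨c, hc, Or.inr ?_⟩
        calc s = (t * t) * s := by rw [htt, one_mul]
          _ = t * (t * s) := by rw [mul_assoc]
          _ = c • t := by rw [hc2]; simp
    obtain ⟨c, hc, hc2 | hc2⟩ := hst
    · refine ⟨c, hc, ?_, ?_⟩ <;> rw [hc2] <;> simp
    · refine ⟨c, hc, ?_, ?_⟩
      · rw [hc2, Matrix.smul_apply, Matrix.smul_apply, smul_eq_mul, smul_eq_mul]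
        linear_combination c * hv1
      · rw [hc2, Matrix.smul_apply, Matrix.smul_apply, smul_eq_mul, smul_eq_mul]
        linear_combination c * hv2

end Vale.Agent.P207.N3.H310
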